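import Vale.Agent.P198.L.Stm

/-! Subpaths. -/

open Set Metric Topology Filter

namespace Vale.Agent.P198

namespace PathPAux

variable {X : Type*} [TopologicalSpace X]

theorem joined_of_Icc {f : ℝ → X} (hf : Continuous f) {s t : ℝ} (hst : s ≤ t) {Q : Set X}
    (hQ : ∀ u ∈ Icc s t, f u ∈ Q) : JoinedIn Q (f s) (f t) := by
  have h1 : IsPathConnected (f '' Icc s t) :=
    ((convex_Icc s t).isPathConnected (nonempty_Icc.2 hst)).image hf
  refine (h1.joinedIn _ (mem_image_of_mem _ (left_mem_Icc.2 hst)) _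
    (mem_image_of_mem _ (right_mem_Icc.2 hst))).mono ?_
  rintro _ ⟨u, hu, rfl⟩
  exact hQ u hu

theorem exists_curve {P : Set X} {x y : X} (h : JoinedIn P x y) :
    ∃ f : ℝ → X, Continuous f ∧ f 0 = x ∧ f 1 = y ∧ ∀ u, f u ∈ P := by
  obtain ⟨γ, hγ⟩ := h
  refine ⟨γ.extend, γ.continuous_extend, γ.extend_zero, γ.extend_one, fun u => ?_⟩
  have : γ.extend u ∈ range γ := γ.extend_range ▸ mem_range_self u
  obtain ⟨v, hv⟩ := this
  exact hv ▸ hγ v

end PathPAux

open PathPAux in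
theorem pathP (X : Type*) [TopologicalSpace X] : PathP X := by
  refine ⟨fun P F x y h hF hy => ?_, fun P φ x y a b h hφ hx hab hy => ?_, fun P x y h => ?_⟩
  · obtain ⟨f, hf, rfl, rfl, hP⟩ := exists_curve h
    obtain ⟨t, ⟨ht, htF⟩, hmin⟩ := (isCompact_Icc.inter_right (hF.preimage hf)).exists_isLeast
      ⟨(1 : ℝ), right_mem_Icc.2 zero_le_one, hy⟩
    refine ⟨f t, htF, hP t, joined_of_Icc hf ht.1 fun u hu => ?_⟩
    by_cases hu' : f u ∈ F
    · have : t ≤ u := hmin ⟨⟨hu.1, hu.2.trans ht.2⟩, hu'⟩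
      right
      rw [le_antisymm hu.2 this]
      rfl
    · exact Or.inl ⟨hP u, hu'⟩
  · obtain ⟨f, hf, rfl, rfl, hP⟩ := exists_curve h
    have hg : Continuous fun u => φ (f u) := hφ.comp_continuous hf hP
    obtain ⟨t, ⟨ht, htb⟩, hmin⟩ := (isCompact_Icc.inter_right
      (isClosed_le (continuous_const (y := b)) hg)).exists_isLeast
      ⟨(1 : ℝ), right_mem_Icc.2 zero_le_one, hy⟩
    have hb : φ (f t) = b := by
      obtain ⟨u, hu, e⟩ := intermediate_value_Icc ht.1 hg.continuousOn ⟨hx.trans hab, htb⟩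
      have : t ≤ u := hmin ⟨⟨hu.1, hu.2.trans ht.2⟩, le_of_eq e.symm⟩
      rw [← le_antisymm hu.2 this]
      exact e
    obtain ⟨s, ⟨hs, hsa⟩, hmax⟩ := (isCompact_Icc.inter_right
      (isClosed_le hg (continuous_const (y := a)))).exists_isGreatest
      ⟨(0 : ℝ), left_mem_Icc.2 ht.1, hx⟩
    have ha : φ (f s) = a := by
      obtain ⟨u, hu, e⟩ := intermediate_value_Icc hs.2 hg.continuousOn
        (show a ∈ Icc (φ (f s)) (φ (f t)) from ⟨hsa, hab.trans htb⟩)
      have : u ≤ s := hmax ⟨⟨hs.1.trans hu.1, hu.2⟩, le_of_eq e⟩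
      rw [le_antisymm hu.1 this]
      exact e
    refine ⟨f s, f t, joined_of_Icc hf hs.2 fun u hu => ⟨hP u, ?_, ?_⟩, ha, hb⟩
    · by_contra hc
      have hc' := not_le.1 hc
      have : u ≤ s := hmax ⟨⟨hs.1.trans hu.1, hu.2⟩, hc'.le⟩
      rw [le_antisymm this hu.1, ha] at hc'
      exact lt_irrefl _ hc'
    · by_contra hc
      have hc' := not_le.1 hc
      have : t ≤ u := hmin ⟨⟨hs.1.trans hu.1, hu.2.trans ht.2⟩, hc'.le⟩
      rw [le_antisymm hu.2 this, hb] at hc'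
      exact lt_irrefl _ hc'
  · obtain ⟨γ, hγ⟩ := h
    refine ⟨range γ, ?_, isCompact_range γ.continuous,
      γ.extend_range ▸ isPathConnected_range γ.continuous_extend,
      γ.source_mem_range, γ.target_mem_range⟩
    rintro _ ⟨t, rfl⟩
    exact hγ t

end Vale.Agent.P198
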