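import Vale.Agent.P198.L.Stm

/-! Test weights for annuli from a bound on the modulus at coarser levels. -/

open Set Metric Topology Filter

namespace Vale.Agent.P198

variable {G Z : Type*} [Group G] [MetricSpace Z] [MulAction G Z]

namespace AnnPAux

theorem cover_le {ι κ : Type*} (S : Finset ι) (T : ι → Finset κ) {τ : κ → ℝ} (hτ : ∀ k, 0 ≤ τ k)
    (U : Finset κ) (h : ∀ k ∈ U, ∃ i ∈ S, k ∈ T i) :
    ∑ k ∈ U, τ k ≤ ∑ i ∈ S, ∑ k ∈ T i, τ k := by
  classical
  induction S using Finset.induction_on generalizing U with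
  | empty =>
    have : U = ∅ := Finset.eq_empty_of_forall_notMem fun k hk => by simpa using h k hk
    simp [this]
  | insert a S ha ih =>
    rw [Finset.sum_insert ha, ← Finset.sum_inter_add_sum_sdiff U (T a)]
    refine add_le_add (Finset.sum_le_sum_of_subset_of_nonneg Finset.inter_subset_right
      fun k _ _ => hτ k) (ih _ fun k hk => ?_)
    obtain ⟨h1, h2⟩ := Finset.mem_sdiff.1 hk
    obtain ⟨i, hi, hk'⟩ := h k h1
    rcases Finset.mem_insert.1 hi with rfl | hi
    · exact (h2 hk').elim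
    · exact ⟨i, hi, hk'⟩

variable (D : Dyn G Z)

/-- Zooming expands at most by `C / Q`. -/
theorem up (h : G) (x y : Z) :
    dist (h⁻¹ • x) (h⁻¹ • y) * D.q ^ D.len h ≤ D.C * dist x y := by
  have hq := D.qpow_pos (D.len h)
  have h0 := D.mob_le h x y
  have h1 : D.q ^ D.len h * D.q ^ D.len h ≤
      max (dist x (D.pt h)) (D.q ^ D.len h) * max (dist y (D.pt h)) (D.q ^ D.len h) :=
    mul_le_mul (le_max_right _ _) (le_max_right _ _) hq.le (hq.le.trans (le_max_right _ _))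
  have h2 := (mul_le_mul_of_nonneg_left h1 (dist_nonneg (x := h⁻¹ • x) (y := h⁻¹ • y))).trans h0
  refine le_of_mul_le_mul_right ?_ hq
  rw [mul_assoc, mul_assoc]
  exact h2

/-- Zooming expands at least by `1 / (C K ^ 2 Q)` near the centre. -/
theorem down (h : G) (x y : Z) {K : ℝ} (hK : 1 ≤ K) (hx : dist x (D.pt h) ≤ K * D.q ^ D.len h)
    (hy : dist y (D.pt h) ≤ K * D.q ^ D.len h) :
    dist x y ≤ D.C * K ^ 2 * D.q ^ D.len h * dist (h⁻¹ • x) (h⁻¹ • y) := by
  have hq := D.qpow_pos (D.len h)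
  have h0 := D.mob_ge h x y
  have hQ : D.q ^ D.len h ≤ K * D.q ^ D.len h := le_mul_of_one_le_left hq.le hK
  have h1 : max (dist x (D.pt h)) (D.q ^ D.len h) * max (dist y (D.pt h)) (D.q ^ D.len h)
      ≤ K * D.q ^ D.len h * (K * D.q ^ D.len h) :=
    mul_le_mul (max_le hx hQ) (max_le hy hQ) (hq.le.trans (le_max_right _ _)) (hq.le.trans hQ)
  have h2 := h0.trans (mul_le_mul_of_nonneg_left
    (mul_le_mul_of_nonneg_left h1 dist_nonneg) D.C_pos.le)
  refine le_of_mul_le_mul_right (h2.trans_eq ?_) hq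
  ring

end AnnPAux

open AnnPAux in
theorem annP (D : Dyn G Z) (hM : ModP D) (hS : SumP G G) (hP : PathP Z) : AnnP D := by
  classical
  have hC := D.one_le_C
  have hC0 := D.C_pos
  have hq0 := D.q_pos
  obtain ⟨L, hL⟩ : ∃ L, L = 2 * D.C + 2 * D.C ^ 2 := ⟨_, rfl⟩
  have hL0 : 0 < L := by rw [hL]; positivity
  obtain ⟨N, hN⟩ := D.loc' L
  obtain ⟨N', hN'⟩ := D.loc' (D.C * (5 * D.C) ^ 2 * (2 * L))
  refine ⟨D.q / (D.C * (5 * D.C) ^ 2), 2 * (N * N') + 1, by positivity, by positivity,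
    fun n B hB hmod z s hs => ?_⟩
  have hqn := D.qpow_pos n
  have hs0 : 0 < s := hqn.trans_le hs
  rcases lt_or_ge D.C s with hsC | hsC
  · refine ⟨fun _ => 0, fun _ => le_rfl, fun g hg => (hg rfl).elim, ?_, fun A x y _ _ hy => ?_⟩
    · simp only [Dyn.mass, ne_eq, OfNat.ofNat_ne_zero, not_false_eq_true, zero_pow,
        Finset.sum_const_zero]
      positivity
    · linarith [D.diam y z]
  obtain ⟨h, h1, h2, h3⟩ := D.zoom z (s := min s 1) (lt_min hs0 one_pos) (min_le_right _ _)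
  obtain ⟨Q, hQ⟩ : ∃ Q, Q = D.q ^ D.len h := ⟨_, rfl⟩
  have hQ0 : 0 < Q := hQ ▸ D.qpow_pos _
  have hnQ : D.q ^ n ≤ D.q ^ D.len h := (le_min hs (D.qpow_le_one n)).trans h1
  have hlen : D.len h ≤ n := (pow_le_pow_iff_right_of_lt_one₀ D.q_pos D.q_lt).1 hnQ
  obtain ⟨m, hm⟩ := Nat.exists_eq_add_of_le hlen
  have hqm := D.qpow_pos m
  have hnm : D.q ^ n = Q * D.q ^ m := by rw [hm, pow_add, hQ]
  have hup := up D h
  have hdown := fun x y => down D h x y (K := 5 * D.C) (by linarith)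
  rw [← hQ] at h1 h2 h3 hnQ hup hdown
  have hsQ : s ≤ D.C * Q := by
    rcases le_total s 1 with h4 | h4
    · rw [min_eq_left h4] at h1
      nlinarith
    · rw [min_eq_right h4] at h1
      nlinarith
  have hann : ∀ x ∈ ann z s, dist x (D.pt h) ≤ 3 * D.C * Q := fun x hx => by
    linarith [dist_triangle_right x (D.pt h) z, hx.2]
  have hhit : ∀ g ∈ D.hit n (ann z s), dist (D.pt g) (D.pt h) ≤ 5 * D.C * Q := fun g hg => by
    obtain ⟨-, x, hx, hd⟩ := D.mem_hit.1 hg
    have : 2 * D.C * D.q ^ n ≤ 2 * D.C * Q := by gcongr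
    linarith [dist_triangle_left (D.pt g) (D.pt h) x, hann x hx]
  obtain ⟨τ, hτ, hτm⟩ := hM.near m (Big Z (D.q / (D.C * (5 * D.C) ^ 2))) B
    (fun A ⟨x, _, hj, _⟩ => ⟨x, hj.source_mem⟩) hB
  have hτB : D.mass m τ ≤ 2 * B := by linarith [hmod m (by omega)]
  obtain ⟨R, hR⟩ : ∃ R : G → G → Prop,
      R = fun g g' => dist (D.pt g') (h⁻¹ • D.pt g) < L * D.q ^ m := ⟨_, rfl⟩
  have hR' : ∀ g g', R g g' ↔ dist (D.pt g') (h⁻¹ • D.pt g) < L * D.q ^ m := by
    intro g g'
    rw [hR]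
  have hσ : ∀ g, 0 ≤ ∑ g' ∈ (D.lev m).filter (R g), τ g' := fun g =>
    Finset.sum_nonneg fun g' _ => hτ.1 g'
  refine ⟨fun g => if g ∈ D.hit n (ann z s) then ∑ g' ∈ (D.lev m).filter (R g), τ g' else 0,
    fun g => ?_, fun g hg => ?_, ?_, fun A x y hj hx hy => ?_⟩
  · dsimp only
    split_ifs
    · exact hσ g
    · exact le_rfl
  · by_contra hc
    exact hg (if_neg hc)
  · have hb := hS.bip (D.hit n (ann z s)) (D.lev m) R τ N N'
      (fun g _ => hN (h⁻¹ • D.pt g) m _ fun g' hg' =>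
        ⟨D.mem_lev.1 (Finset.mem_filter.1 hg').1, ((hR' g g').1 (Finset.mem_filter.1 hg').2).le⟩)
      (fun g' _ => by
        rcases ((D.hit n (ann z s)).filter fun g => R g g').eq_empty_or_nonempty with he | ⟨g0, h0⟩
        · rw [he]
          exact Nat.zero_le _
        · obtain ⟨h01, h02⟩ := Finset.mem_filter.1 h0
          refine hN' (D.pt g0) n _ fun g hg => ?_
          obtain ⟨hg1, hg2⟩ := Finset.mem_filter.1 hg
          refine ⟨(D.mem_hit.1 hg1).1, (hdown _ _ (hhit g hg1) (hhit g0 h01)).trans ?_⟩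
          have h5 : dist (h⁻¹ • D.pt g) (h⁻¹ • D.pt g0) ≤ 2 * L * D.q ^ m := by
            linarith [dist_triangle_left (h⁻¹ • D.pt g) (h⁻¹ • D.pt g0) (D.pt g'),
              (hR' g g').1 hg2, (hR' g0 g').1 h02]
          refine (mul_le_mul_of_nonneg_left h5 (by positivity)).trans_eq ?_
          rw [hnm]
          ring)
    have e : D.mass n (fun g => if g ∈ D.hit n (ann z s) then
        ∑ g' ∈ (D.lev m).filter (R g), τ g' else 0)
        = ∑ g ∈ D.hit n (ann z s), (∑ g' ∈ (D.lev m).filter (R g), τ g') ^ 2 := by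
      rw [Dyn.mass, ← Finset.sum_subset (D.hit_subset n (ann z s))
        (fun g _ hg => by rw [if_neg hg]; simp)]
      exact Finset.sum_congr rfl fun g hg => by rw [if_pos hg]
    rw [e]
    refine hb.trans ?_
    have h6 : (N : ℝ) * N' * D.mass m τ ≤ N * N' * (2 * B) :=
      mul_le_mul_of_nonneg_left hτB (by positivity)
    refine h6.trans ?_
    nlinarith
  · obtain ⟨x', y', hj', hx', hy'⟩ := hP.band A (fun w => dist w z) x y s (2 * s) hj
      (continuous_id.dist continuous_const).continuousOn hx (by linarith) hy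
    have hj2 : JoinedIn (A ∩ ann z s) x' y' := hj'
    have hbig : (fun w => h⁻¹ • w) '' (A ∩ ann z s) ∈ Big Z (D.q / (D.C * (5 * D.C) ^ 2)) := by
      refine ⟨_, _, hj2.map (D.cont_smul h⁻¹), ?_⟩
      have hCQ : 3 * D.C * Q ≤ 5 * D.C * Q := by nlinarith [mul_pos hC0 hQ0]
      have h7 := hdown x' y' ((hann x' hj2.source_mem.2).trans hCQ)
        ((hann y' hj2.target_mem.2).trans hCQ)
      have h8 : D.q * Q ≤ dist x' y' := by
        have h9 : dist x' z = s := hx'
        have h10 : dist y' z = 2 * s := hy'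
        linarith [dist_triangle_left y' z x', min_le_left s 1]
      rw [div_le_iff₀ (by positivity)]
      refine le_of_mul_le_mul_right ((h8.trans h7).trans_eq ?_) hQ0
      ring
    refine (hτ.2 _ hbig).trans ((cover_le (D.hit n (A ∩ ann z s))
      (fun g => (D.lev m).filter (R g)) hτ.1 _ fun g' hg' => ?_).trans ?_)
    · obtain ⟨hl, _, ⟨w, hw, rfl⟩, hd⟩ := D.mem_hit.1 hg'
      obtain ⟨g, hg1, hg2⟩ := D.exists_hit n w
      refine ⟨g, D.mem_hit.2 ⟨hg1, w, hw, hg2⟩,
        Finset.mem_filter.2 ⟨D.mem_lev.2 hl, (hR' g g').2 ?_⟩⟩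
      have h11 : dist (h⁻¹ • w) (h⁻¹ • D.pt g) ≤ 2 * D.C ^ 2 * D.q ^ m := by
        refine le_of_mul_le_mul_right ((hup w (D.pt g)).trans
          ((mul_le_mul_of_nonneg_left hg2.le hC0.le).trans_eq ?_)) hQ0
        rw [hnm]
        ring
      have h12 := dist_triangle_left (D.pt g') (h⁻¹ • D.pt g) (h⁻¹ • w)
      rw [hL]
      linarith
    · refine le_trans (le_of_eq (Finset.sum_congr rfl fun g hg => ?_))
        (Finset.sum_le_sum_of_subset_of_nonneg (D.hit_mono n inter_subset_left) fun g _ _ => ?_)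
      · rw [if_pos (D.hit_mono n inter_subset_right hg)]
      · split_ifs
        · exact hσ g
        · exact le_rfl

end Vale.Agent.P198
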