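import Vale.Agent.P198.L.Stm

/-! Flows: existence, testing and crossing. -/

open Set Metric Topology Filter

namespace Vale.Agent.P198

variable {G Z : Type*} [Group G] [MetricSpace Z] [MulAction G Z]

namespace FlowPAux

open Classical in
theorem dens_eq (D : Dyn G Z) {ι : Type*} (n : ℕ) (T : Finset ι) (μ : ι → ℝ) (c : ι → Set Z)
    (g : G) : D.dens n T μ c g = ∑ i ∈ T, if g ∈ D.hit n (c i) then μ i else 0 := by
  rw [Dyn.dens, Finset.sum_filter]

theorem dens_nonneg (D : Dyn G Z) {ι : Type*} (n : ℕ) (T : Finset ι) {μ : ι → ℝ}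
    (hμ : ∀ i, 0 ≤ μ i) (c : ι → Set Z) (g : G) : 0 ≤ D.dens n T μ c g :=
  Finset.sum_nonneg fun i _ => hμ i

theorem mass_nonneg (D : Dyn G Z) (n : ℕ) (ρ : G → ℝ) : 0 ≤ D.mass n ρ :=
  Finset.sum_nonneg fun _ _ => sq_nonneg _

theorem mass_div (D : Dyn G Z) (n : ℕ) (ρ : G → ℝ) (w : ℝ) :
    D.mass n (fun g => ρ g / w) = D.mass n ρ / w ^ 2 := by
  simp only [Dyn.mass, div_pow, Finset.sum_div]

theorem ln_div (D : Dyn G Z) (n : ℕ) (ρ : G → ℝ) (w : ℝ) (S : Set Z) :
    D.ln n (fun g => ρ g / w) S = D.ln n ρ S / w := by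
  simp only [Dyn.ln, Finset.sum_div]

open Classical in
theorem wt_eq {ι : Type*} (T : Finset ι) (μ : ι → ℝ) (E : Set ι) :
    wt T μ E = ∑ i ∈ T, if i ∈ E then μ i else 0 := by
  rw [wt, Finset.sum_filter]

theorem wt_nonneg {ι : Type*} (T : Finset ι) {μ : ι → ℝ} (hμ : ∀ i, 0 ≤ μ i) (E : Set ι) :
    0 ≤ wt T μ E := Finset.sum_nonneg fun i _ => hμ i

theorem pair_eq (D : Dyn G Z) {ι : Type*} (n : ℕ) (T : Finset ι) (μ : ι → ℝ) (c : ι → Set Z)
    (ρ : G → ℝ) :
    ∑ g ∈ D.lev n, ρ g * D.dens n T μ c g = ∑ i ∈ T, μ i * D.ln n ρ (c i) := by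
  classical
  simp only [dens_eq, Finset.mul_sum, Dyn.ln]
  rw [Finset.sum_comm]
  refine Finset.sum_congr rfl fun i _ => ?_
  rw [← Finset.sum_subset (D.hit_subset n (c i)) (fun g _ hg => by simp [hg])]
  exact Finset.sum_congr rfl fun g hg => by simp [hg, mul_comm]

end FlowPAux

open FlowPAux

theorem flowP (D : Dyn G Z) (ι : Type*) (hM : ModP D) (hO : OptP G ι) : FlowP D ι := by
  classical
  refine ⟨fun n Γ c hΓ _ => ?_, fun n T μ c E ρ hμ hρ h => ?_, fun n T μ c E Γ hμ h => ?_⟩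
  · obtain ⟨T, μ, h1, h2, h3, h4⟩ := hO (D.lev n) Γ (fun i => D.hit n (c i)) hΓ
      fun i _ => D.hit_subset n (c i)
    refine ⟨T, μ, h1, h2, h3, ?_⟩
    have h5 : ∀ j ∈ Γ, D.mass n (D.dens n T μ c) ≤ D.ln n (D.dens n T μ c) (c j) := by
      intro j hj
      have := h4 j hj
      simp only [Dyn.mass, Dyn.ln, Dyn.dens]
      convert this
    rcases (mass_nonneg D n (D.dens n T μ c)).eq_or_lt with h0 | h0
    · rw [← h0, mul_zero]
      exact zero_le_one
    · have hA : D.Adm n (fun g => D.dens n T μ c g / D.mass n (D.dens n T μ c)) (c '' Γ) := by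
        refine ⟨fun g => div_nonneg (dens_nonneg D n T h2 c g) h0.le, ?_⟩
        rintro _ ⟨j, hj, rfl⟩
        rw [ln_div, le_div_iff₀ h0, one_mul]
        exact h5 j hj
      have h6 := hM.le _ _ _ hA
      rw [mass_div] at h6
      have e : D.mass n (D.dens n T μ c) / D.mass n (D.dens n T μ c) ^ 2
          * D.mass n (D.dens n T μ c) = 1 := by field_simp
      exact (mul_le_mul_of_nonneg_right h6 h0.le).trans e.le
  · have h1 : wt T μ E ≤ ∑ g ∈ D.lev n, ρ g * D.dens n T μ c g := by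
      rw [pair_eq, wt_eq]
      refine Finset.sum_le_sum fun i hi => ?_
      split_ifs with hE
      · exact le_mul_of_one_le_right (hμ i) (h i hi hE)
      · exact mul_nonneg (hμ i) (Finset.sum_nonneg fun g _ => hρ g)
    exact (pow_le_pow_left₀ (wt_nonneg T hμ E) h1 2).trans
      (Finset.sum_mul_sq_le_sq_mul_sq _ _ _)
  · rcases (wt_nonneg T hμ E).eq_or_lt with h0 | h0
    · rw [← h0]
      simpa using mass_nonneg D n _
    · have hA : D.Adm n (fun g => D.dens n T μ c g / wt T μ E) Γ := by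
        refine ⟨fun g => div_nonneg (dens_nonneg D n T hμ c g) h0.le, fun B hB => ?_⟩
        rw [ln_div, le_div_iff₀ h0, one_mul, wt_eq]
        simp only [Dyn.ln, dens_eq]
        rw [Finset.sum_comm]
        refine Finset.sum_le_sum fun i hi => ?_
        have hn : ∀ g ∈ D.hit n B, 0 ≤ if g ∈ D.hit n (c i) then μ i else 0 := fun g _ => by
          split_ifs
          · exact hμ i
          · exact le_rfl
        split_ifs with hE
        · obtain ⟨x, hx1, hx2⟩ := h i hi hE B hB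
          obtain ⟨g, hg1, hg2⟩ := D.exists_hit n x
          have hg3 : g ∈ D.hit n B := D.mem_hit.2 ⟨hg1, x, hx2, hg2⟩
          have hg4 : g ∈ D.hit n (c i) := D.mem_hit.2 ⟨hg1, x, hx1, hg2⟩
          refine le_trans ?_ (Finset.single_le_sum hn hg3)
          simp [hg4]
        · exact Finset.sum_nonneg hn
      have h6 := hM.le _ _ _ hA
      rw [mass_div, le_div_iff₀ (pow_pos h0 2)] at h6
      linarith [mul_comm (wt T μ E ^ 2) (D.Mod n Γ)]

end Vale.Agent.P198
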