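import Vale.Agent.P198.L.Stm

/-! Quasi invariance of the combinatorial modulus. -/

open Set Metric Topology Filter

namespace Vale.Agent.P198

variable {G Z : Type*} [Group G] [MetricSpace Z] [MulAction G Z]

theorem invP (D : Dyn G Z) (hM : ModP D) (hS : SumP G G) : InvP D := by
  classical
  intro h
  obtain ⟨L1, l1, h1⟩ := D.lip h
  obtain ⟨L2, l2, h2⟩ := D.lip h⁻¹
  obtain ⟨N, hN⟩ := D.loc' (2 * D.C * (1 + L1))
  obtain ⟨N', hN'⟩ := D.loc' (L2 * (2 * D.C * (1 + L1)))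
  have hc : (0 : ℝ) < N * N' + 1 := by positivity
  refine ⟨(N * N' + 1 : ℝ)⁻¹, inv_pos.2 hc, fun n Γ hΓ => le_of_forall_pos_le_add fun ε hε => ?_⟩
  obtain ⟨τ, ⟨t0, t1⟩, t2⟩ := hM.near n ((fun A => (fun x => h • x) '' A) '' Γ) ε (by
    rintro _ ⟨A, hA, rfl⟩
    exact (hΓ A hA).image _) hε
  obtain ⟨R, hR⟩ : ∃ R : G → G → Prop,
      R = fun g g' => dist (D.pt g') (h • D.pt g) < 2 * D.C * (1 + L1) * D.q ^ n := ⟨_, rfl⟩
  have adm : D.Adm n (fun g => ∑ g' ∈ (D.lev n).filter (R g), τ g') Γ := by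
    refine ⟨fun g => Finset.sum_nonneg fun g' _ => t0 g', fun A hA => ?_⟩
    refine (t1 _ (mem_image_of_mem _ hA)).trans ?_
    have z : ∀ g g', 0 ≤ if R g g' then τ g' else 0 := fun g g' => by
      split_ifs
      exacts [t0 g', le_rfl]
    simp only [Dyn.ln, Finset.sum_filter]
    rw [Finset.sum_comm]
    refine le_trans (Finset.sum_le_sum fun g' hg' => ?_) (Finset.sum_le_sum_of_subset_of_nonneg
      (D.hit_subset n _) fun g' _ _ => Finset.sum_nonneg fun g _ => z g g')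
    obtain ⟨-, _, ⟨x, hx, rfl⟩, h3⟩ := D.mem_hit.1 hg'
    obtain ⟨g, h4, h5⟩ := D.exists_hit n x
    refine le_trans (le_of_eq (if_pos ?_).symm)
      (Finset.single_le_sum (fun g _ => z g g') (D.mem_hit.2 ⟨h4, x, hx, h5⟩))
    have h6 := dist_triangle_left (D.pt g') (h • D.pt g) (h • x)
    have h7 := (h1 x (D.pt g)).trans (mul_le_mul_of_nonneg_left h5.le l1.le)
    rw [hR]
    linarith
  have ms := hS.bip (D.lev n) (D.lev n) R τ N N'
    (fun g _ => hN (h • D.pt g) n _ fun g' hg' => by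
      obtain ⟨h3, h4⟩ := Finset.mem_filter.1 hg'
      rw [hR] at h4
      exact ⟨D.mem_lev.1 h3, h4.le⟩)
    fun g' _ => hN' (h⁻¹ • D.pt g') n _ fun g hg => by
      obtain ⟨h3, h4⟩ := Finset.mem_filter.1 hg
      have h5 := h2 (h • D.pt g) (D.pt g')
      rw [hR] at h4
      rw [inv_smul_smul, dist_comm (h • D.pt g)] at h5
      exact ⟨D.mem_lev.1 h3, h5.trans
        ((mul_le_mul_of_nonneg_left h4.le l2.le).trans_eq (mul_assoc _ _ _).symm)⟩
  have h3 : D.Mod n Γ ≤ N * N' * D.mass n τ := (hM.le n _ Γ adm).trans ms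
  have h4 : 0 ≤ D.mass n τ := Finset.sum_nonneg fun g _ => sq_nonneg _
  rw [inv_mul_le_iff₀ hc]
  linarith [mul_le_mul_of_nonneg_left t2.le hc.le]

end Vale.Agent.P198
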