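import Vale.Agent.P198.L.Stm

/-! An approximate level set joining bottom to top. -/

open Set Metric Topology Filter

namespace Vale.Agent.P198
namespace LevelP

theorem cpt (a b c d : ℝ) : IsCompact (rect a b c d) := by
  have := (isCompact_Icc (a := a) (b := b)).reProdIm (isCompact_Icc (a := c) (b := d))
  convert this using 1
  ext w
  simp [rect, Complex.mem_reProdIm, and_assoc]

theorem cvx (a b c d : ℝ) : Convex ℝ (rect a b c d) :=
  (convex_halfSpace_re_ge a).inter ((convex_halfSpace_re_le b).inter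
    ((convex_halfSpace_im_ge c).inter (convex_halfSpace_im_le d)))

theorem seg {a b c d : ℝ} {S : Set (rect a b c d)} {x y : rect a b c d} {L : Set ℂ}
    (hL : Convex ℝ L) (hx : x.1 ∈ L) (hy : y.1 ∈ L) (h : ∀ w ∈ S, w.1 ∉ L) : JoinedIn Sᶜ x y := by
  refine (IsInducing.subtypeVal.joinedIn_image (F := Sᶜ) (fun hh => h _ hh hx)
    (fun hh => h _ hh hy)).1 ?_
  refine JoinedIn.of_segment_subset fun w hw => ?_
  exact ⟨⟨w, (cvx a b c d).segment_subset x.2 y.2 hw⟩,
    fun hh => h _ hh (hL.segment_subset hx hy hw), rfl⟩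

theorem cre (a : ℝ) : Convex ℝ {w : ℂ | w.re = a} := by
  convert (convex_halfSpace_re_ge a).inter (convex_halfSpace_re_le a) using 1
  ext w
  simp [le_antisymm_iff, and_comm]

theorem cim (a : ℝ) : Convex ℝ {w : ℂ | w.im = a} := by
  convert (convex_halfSpace_im_ge a).inter (convex_halfSpace_im_le a) using 1
  ext w
  simp [le_antisymm_iff, and_comm]

end LevelP

open LevelP in
theorem levelP (h : ∀ a b c d : ℝ, a ≤ b → c ≤ d → SepP (rect a b c d)) : LevelP := by
  intro a b c d t e U hab hcd he hU hl hr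
  have : CompactSpace (rect a b c d) := isCompact_iff_compactSpace.1 (cpt a b c d)
  have hV : Continuous fun x : rect a b c d => U x := hU.domRestrict
  let p₁ : rect a b c d := ⟨⟨a, c⟩, le_rfl, hab, le_rfl, hcd⟩
  let p₂ : rect a b c d := ⟨⟨a, d⟩, le_rfl, hab, hcd, le_rfl⟩
  let p₃ : rect a b c d := ⟨⟨b, d⟩, hab, le_rfl, hcd, le_rfl⟩
  let p₄ : rect a b c d := ⟨⟨b, c⟩, hab, le_rfl, le_rfl, hcd⟩
  have nl : ∀ w : rect a b c d, U w = t → w.1 ∉ {w : ℂ | w.re = a} := fun w hw hh => by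
    have := hl w w.2 hh
    linarith
  have nr : ∀ w : rect a b c d, U w = t → w.1 ∉ {w : ℂ | w.re = b} := fun w hw hh => by
    have := hr w w.2 hh
    linarith
  obtain ⟨W0, hW, -, hc, -, hs⟩ := h a b c d hab hcd {x | U x = t} {x | |U x - t| < e} p₁ p₄
    (isClosed_eq hV continuous_const).isCompact
    (isOpen_lt (hV.sub continuous_const).abs continuous_const)
    (fun x (hx : U x = t) => show |U x - t| < e by rwa [hx, sub_self, abs_zero])
    (fun hh => nl _ hh rfl) (fun hh => nr _ hh rfl) (by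
      rintro ⟨γ, hγ⟩
      have h1 := hl p₁ p₁.2 rfl
      have h2 := hr p₄ p₄.2 rfl
      obtain ⟨s, hs⟩ := intermediate_value_univ (0 : unitInterval) 1 (hV.comp γ.continuous)
        (show t ∈ Icc (U (γ 0)) (U (γ 1)) by
          rw [γ.source, γ.target]; constructor <;> linarith)
      exact hγ s hs)
  obtain ⟨x, hx, hxc⟩ : ∃ x ∈ {x : rect a b c d | U x = t} ∩ W0, x.1 ∈ {w : ℂ | w.im = c} := by
    by_contra hn
    exact hs (seg (cim c) rfl rfl fun w hw hh => hn ⟨w, hw, hh⟩)
  obtain ⟨y, hy, hyd⟩ : ∃ x ∈ {x : rect a b c d | U x = t} ∩ W0, x.1 ∈ {w : ℂ | w.im = d} := by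
    by_contra hn
    exact hs (((seg (x := p₁) (y := p₂) (cre a) rfl rfl fun w hw => nl w hw.1).trans
      (seg (x := p₂) (y := p₃) (cim d) rfl rfl fun w hw hh => hn ⟨w, hw, hh⟩)).trans
      (seg (x := p₃) (y := p₄) (cre b) rfl rfl fun w hw => nr w hw.1))
  obtain ⟨γ, hγ⟩ := hc.joinedIn x hx.2 y hy.2
  have hγc : Continuous fun s => (γ s : ℂ) := continuous_subtype_val.comp γ.continuous
  have : PathConnectedSpace unitInterval := isPathConnected_iff_pathConnectedSpace.1
    ((convex_Icc (0 : ℝ) 1).isPathConnected ⟨0, le_rfl, zero_le_one⟩)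
  refine ⟨range fun s => (γ s : ℂ), ?_, isCompact_range hγc, isPathConnected_range hγc, ?_,
    ⟨_, ⟨0, rfl⟩, ?_⟩, _, ⟨1, rfl⟩, ?_⟩
  · rintro _ ⟨s, rfl⟩
    exact (γ s).2
  · rintro _ ⟨s, rfl⟩
    exact hW (hγ s)
  · simp only [γ.source]
    exact hxc
  · simp only [γ.target]
    exact hyd

end Vale.Agent.P198
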