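import Vale.Agent.P198.L.Stm

/-! Lifting of circle valued maps. -/

open Set Metric Topology Filter

namespace Vale.Agent.P198

theorem liftP_convex (S : Set ℂ) (hS : Convex ℝ S) (hne : S.Nonempty) : LiftP S := by
  intro f
  have := hS.contractibleSpace hne
  have := hS.locallyPathConnectedSpace
  obtain ⟨a, ha⟩ := hne
  obtain ⟨e, he⟩ := Circle.exp_surjective (f ⟨a, ha⟩)
  obtain ⟨F, ⟨-, hF⟩, -⟩ := Circle.isCoveringMap_exp.existsUnique_continuousMap_lifts f ⟨a, ha⟩ e he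
  exact ⟨F, fun x => congrFun hF x⟩

variable {G Z : Type*} [Group G] [MetricSpace Z] [MulAction G Z]

namespace LiftC

theorem chart (D : Dyn G Z) (f : C(Z, Circle)) {a b : Z} (hab : a ≠ b) {e : ℝ}
    (he : Circle.exp e = f a) :
    ∃ θ : Z → ℝ, (∀ x, x ≠ b → ContinuousAt θ x ∧ Circle.exp (θ x) = f x) ∧ θ a = e := by
  obtain ⟨ψ, hψ, hr⟩ := D.chart b
  have hs : ∀ x, x ≠ b → ∃ w, ψ w = x := fun x hx => show x ∈ range ψ from hr ▸ hx
  obtain ⟨w, rfl⟩ := hs a hab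
  obtain ⟨F, ⟨h0, hF⟩, -⟩ := Circle.isCoveringMap_exp.existsUnique_continuousMap_lifts
    (f.comp ⟨ψ, hψ.continuous⟩) w e he
  have hi : ∀ u, Function.invFun ψ (ψ u) = u := Function.leftInverse_invFun hψ.injective
  refine ⟨fun x => F (Function.invFun ψ x), fun x hx => ?_, by simp only [hi, h0]⟩
  obtain ⟨u, rfl⟩ := hs x hx
  refine ⟨hψ.continuousAt_iff.1 ?_, ?_⟩
  · simp only [Function.comp_def, hi]
    exact F.continuous.continuousAt
  · simp only [hi]
    exact congrFun hF u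

end LiftC

theorem liftP_Z (D : Dyn G Z) : LiftP Z := by
  classical
  intro f
  obtain ⟨b⟩ := D.ne
  obtain ⟨ψ, hψ, hr⟩ := D.chart b
  have hb : ∀ w, ψ w ≠ b := fun w => show ψ w ∈ ({b}ᶜ : Set Z) from hr ▸ mem_range_self w
  have h10 : ψ 1 ≠ ψ 0 := fun h => one_ne_zero (hψ.injective h)
  obtain ⟨e, he⟩ := Circle.exp_surjective (f (ψ 1))
  obtain ⟨θ, hθ, h1⟩ := LiftC.chart D f (hb 1) he
  obtain ⟨θ', hθ', h2⟩ := LiftC.chart D f h10 he
  have hU : ∀ x ∈ ψ '' {0}ᶜ, x ≠ b ∧ x ≠ ψ 0 := by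
    rintro _ ⟨w, hw, rfl⟩
    exact ⟨hb w, fun h => hw (hψ.injective h)⟩
  have hE : EqOn θ θ' (ψ '' {0}ᶜ) := Circle.isCoveringMap_exp.eqOn_of_comp_eqOn
    ((isConnected_compl_singleton_of_one_lt_rank (by simp) (0 : ℂ)).isPreconnected.image _
      hψ.continuous.continuousOn)
    (fun x hx => (hθ x (hU x hx).1).1.continuousWithinAt)
    (fun x hx => (hθ' x (hU x hx).2).1.continuousWithinAt)
    (fun x hx => (hθ x (hU x hx).1).2.trans (hθ' x (hU x hx).2).2.symm)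
    ⟨1, one_ne_zero, rfl⟩ (h1.trans h2.symm)
  refine ⟨⟨fun x => if x = b then θ' x else θ x, continuous_iff_continuousAt.2 fun x => ?_⟩,
    fun x => ?_⟩
  · by_cases hx : x = b
    · have hx0 : x ≠ ψ 0 := hx ▸ (hb 0).symm
      refine (hθ' x hx0).1.congr ?_
      filter_upwards [isOpen_ne.mem_nhds hx0] with y hy
      split_ifs with hyb
      · rfl
      · obtain ⟨w, rfl⟩ : y ∈ range ψ := hr ▸ hyb
        exact (hE ⟨w, fun h => hy (congrArg ψ h), rfl⟩).symm
    · refine (hθ x hx).1.congr ?_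
      filter_upwards [isOpen_ne.mem_nhds hx] with y hy
      rw [if_neg hy]
  · show Circle.exp (if x = b then θ' x else θ x) = f x
    split_ifs with hx
    · exact (hθ' x (hx ▸ (hb 0).symm)).2
    · exact (hθ x hx).2

end Vale.Agent.P198
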