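import Vale.Agent.P198.L.Stm

/-! Basic properties of the combinatorial modulus. -/

open Set Metric Topology Filter

namespace Vale.Agent.P198

variable {G Z : Type*} [Group G] [MetricSpace Z] [MulAction G Z]

namespace ModPAux

variable (D : Dyn G Z)

theorem mass_nonneg (n : ℕ) (ρ : G → ℝ) : 0 ≤ D.mass n ρ :=
  Finset.sum_nonneg fun _ _ => sq_nonneg _

theorem bdd (n : ℕ) (Γ : Set (Set Z)) : BddBelow {m | ∃ ρ, D.Adm n ρ Γ ∧ m = D.mass n ρ} :=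
  ⟨0, fun _ ⟨ρ, _, h⟩ => h ▸ mass_nonneg D n ρ⟩

theorem le (n : ℕ) (ρ : G → ℝ) (Γ : Set (Set Z)) (h : D.Adm n ρ Γ) : D.Mod n Γ ≤ D.mass n ρ :=
  csInf_le (bdd D n Γ) ⟨ρ, h, rfl⟩

theorem nonneg (n : ℕ) (Γ : Set (Set Z)) : 0 ≤ D.Mod n Γ :=
  Real.sInf_nonneg fun _ ⟨ρ, _, h⟩ => h ▸ mass_nonneg D n ρ

theorem adm_one (n : ℕ) {Γ : Set (Set Z)} (h : ∀ A ∈ Γ, A.Nonempty) : D.Adm n (fun _ => 1) Γ := by
  refine ⟨fun _ => zero_le_one, fun A hA => ?_⟩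
  obtain ⟨x, hx⟩ := h A hA
  obtain ⟨g, h1, h2⟩ := D.exists_hit n x
  exact Finset.single_le_sum (f := fun _ : G => (1 : ℝ)) (fun _ _ => zero_le_one)
    (D.mem_hit.2 ⟨h1, x, hx, h2⟩)

theorem near (n : ℕ) (Γ : Set (Set Z)) (ε : ℝ) (h : ∀ A ∈ Γ, A.Nonempty) (hε : 0 < ε) :
    ∃ ρ, D.Adm n ρ Γ ∧ D.mass n ρ < D.Mod n Γ + ε := by
  obtain ⟨m, ⟨ρ, h1, rfl⟩, h2⟩ := Real.lt_sInf_add_pos
    (s := {m | ∃ ρ, D.Adm n ρ Γ ∧ m = D.mass n ρ}) ⟨_, _, adm_one D n h, rfl⟩ hε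
  exact ⟨ρ, h1, h2⟩

theorem ovp (n : ℕ) (Γ Γ' : Set (Set Z)) (h : ∀ A ∈ Γ', A.Nonempty)
    (hs : ∀ A ∈ Γ, ∃ A' ∈ Γ', A' ⊆ A) : D.Mod n Γ ≤ D.Mod n Γ' := by
  refine le_of_forall_pos_le_add fun ε hε => ?_
  obtain ⟨ρ, h1, h2⟩ := near D n Γ' ε h hε
  refine (le D n ρ Γ ⟨h1.1, fun A hA => ?_⟩).trans h2.le
  obtain ⟨A', hA', hsub⟩ := hs A hA
  exact (h1.2 A' hA').trans (D.ln_mono n h1.1 hsub)

theorem union (n : ℕ) (Γ Γ' : Set (Set Z)) (h : ∀ A ∈ Γ, A.Nonempty) (h' : ∀ A ∈ Γ', A.Nonempty) :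
    D.Mod n (Γ ∪ Γ') ≤ D.Mod n Γ + D.Mod n Γ' := by
  refine le_of_forall_pos_le_add fun ε hε => ?_
  obtain ⟨ρ, h1, h2⟩ := near D n Γ (ε / 2) h (half_pos hε)
  obtain ⟨ρ', h1', h2'⟩ := near D n Γ' (ε / 2) h' (half_pos hε)
  have ha : D.Adm n (fun g => max (ρ g) (ρ' g)) (Γ ∪ Γ') := by
    refine ⟨fun g => (h1.1 g).trans (le_max_left _ _), fun A hA => ?_⟩
    rcases hA with hA | hA
    · exact (h1.2 A hA).trans (Finset.sum_le_sum fun g _ => le_max_left _ _)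
    · exact (h1'.2 A hA).trans (Finset.sum_le_sum fun g _ => le_max_right _ _)
  have hm : D.mass n (fun g => max (ρ g) (ρ' g)) ≤ D.mass n ρ + D.mass n ρ' := by
    rw [Dyn.mass, Dyn.mass, Dyn.mass, ← Finset.sum_add_distrib]
    refine Finset.sum_le_sum fun g _ => ?_
    rcases le_total (ρ g) (ρ' g) with hg | hg
    · rw [max_eq_right hg]
      linarith [sq_nonneg (ρ g)]
    · rw [max_eq_left hg]
      linarith [sq_nonneg (ρ' g)]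
  linarith [le D n _ _ ha]

theorem sub (n : ℕ) (s : Finset (Set (Set Z))) (h : ∀ Γ ∈ s, ∀ A ∈ Γ, A.Nonempty) :
    D.Mod n (⋃ Γ ∈ s, Γ) ≤ ∑ Γ ∈ s, D.Mod n Γ := by
  classical
  induction s using Finset.induction_on with
  | empty =>
    have h0 := le D n (fun _ => 0) ∅ ⟨fun _ => le_rfl, fun _ hA => hA.elim⟩
    simpa [Dyn.mass] using h0
  | insert Γ s hΓ ih =>
    rw [Finset.sum_insert hΓ, Finset.set_biUnion_insert]
    refine (union D n _ _ (h Γ (Finset.mem_insert_self _ _)) fun A hA => ?_).trans ?_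
    · obtain ⟨Γ', h1, h2⟩ := mem_iUnion₂.1 hA
      exact h Γ' (Finset.mem_insert_of_mem h1) A h2
    · linarith [ih fun Γ' h1 => h Γ' (Finset.mem_insert_of_mem h1)]

end ModPAux

theorem modP (D : Dyn G Z) : ModP D :=
  ⟨ModPAux.le D, ModPAux.nonneg D, ModPAux.near D, ModPAux.ovp D, ModPAux.sub D⟩

end Vale.Agent.P198
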