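import Vale.Agent.P198.L.Stm

/-! The point of least norm in the convex hull of indicator functions. -/

open Set Finset
open scoped RealInnerProductSpace

namespace Vale.Agent.P198

open Classical in
theorem optP (G ι : Type*) : OptP G ι := by
  intro V Γ c hne hc
  let f : Finset G → EuclideanSpace ℝ V := fun A => WithLp.toLp 2 fun g => if g.1 ∈ A then 1 else 0
  have hfin : ((fun i => f (c i)) '' Γ).Finite :=
    (V.powerset.finite_toSet.image f).subset (by
      rintro _ ⟨i, hi, rfl⟩
      exact ⟨c i, by simpa using hc i hi, rfl⟩)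
  have hK := convex_convexHull ℝ ((fun i => f (c i)) '' Γ)
  obtain ⟨v, hv, h1⟩ := exists_norm_eq_iInf_of_complete_convex (hne.image _).convexHull
    (hfin.isCompact_convexHull ℝ).isComplete hK 0
  rw [norm_eq_iInf_iff_real_inner_le_zero hK hv] at h1
  rw [← hfin.coe_toFinset, Finset.mem_convexHull'] at hv
  obtain ⟨w, w0, w1, w2⟩ := hv
  have : Nonempty ι := ⟨hne.some⟩
  let r := Function.invFunOn (fun i => f (c i)) Γ
  have r1 : ∀ y ∈ hfin.toFinset, r y ∈ Γ ∧ f (c (r y)) = y := fun y hy =>
    Function.invFunOn_pos (f := fun i => f (c i)) (hfin.mem_toFinset.1 hy)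
  have r2 : InjOn r hfin.toFinset := fun y hy y' hy' e => by
    rw [← (r1 y hy).2, e, (r1 y' hy').2]
  have key : ∀ g : V, ∑ i ∈ (hfin.toFinset.image r).filter fun i => g.1 ∈ c i,
      max (w (f (c i))) 0 = v g := by
    intro g
    rw [← w2, sum_filter, sum_image r2]
    simp only [WithLp.ofLp_sum, Finset.sum_apply, PiLp.smul_apply, smul_eq_mul]
    refine sum_congr rfl fun y hy => ?_
    rw [(r1 y hy).2, max_eq_left (w0 y hy)]
    conv_rhs => rw [← (r1 y hy).2]
    simp only [f, (r1 y hy).2, mul_ite, mul_one, mul_zero]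
  refine ⟨hfin.toFinset.image r, fun i => max (w (f (c i))) 0, fun i hi => ?_,
    fun i => le_max_right _ _, ?_, fun j hj => ?_⟩
  · obtain ⟨y, hy, rfl⟩ := Finset.mem_image.1 hi
    exact (r1 y hy).1
  · rw [sum_image r2, ← w1]
    exact sum_congr rfl fun y hy => by rw [(r1 y hy).2, max_eq_left (w0 y hy)]
  · have h2 := h1 _ (subset_convexHull ℝ _ ⟨j, hj, rfl⟩)
    rw [zero_sub, inner_neg_left, inner_sub_right, real_inner_self_eq_norm_sq,
      EuclideanSpace.real_norm_sq_eq, PiLp.inner_apply] at h2
    have h3 : c j = V.filter fun g => g ∈ c j := by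
      ext g
      simpa using fun h => hc j hj h
    rw [← sum_coe_sort V]
    conv_rhs => rw [h3, sum_filter, ← sum_coe_sort V]
    simp only [key]
    simp only [f, RCLike.inner_apply, conj_trivial, ite_mul, one_mul, zero_mul] at h2
    linarith

end Vale.Agent.P198
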