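import Vale.Agent.P198.L.Stm

/-! The Phragmen-Brouwer property from lifting of circle valued maps. -/

open Set Metric Topology Filter

namespace Vale.Agent.P198

namespace SepP

variable {X : Type*} [MetricSpace X] [LocallyPathConnectedSpace X]

theorem closed_comp {W F : Set X} (hW : IsOpen W) (hF : IsClosed F) (hFW : F ⊆ W) (x : X) :
    IsClosed (F ∩ pathComponentIn W x) := by
  have e : F ∩ pathComponentIn W x
      = F ∩ (⋃ y ∈ W \ pathComponentIn W x, pathComponentIn W y)ᶜ := by
    ext z
    simp only [mem_inter_iff, mem_compl_iff, mem_iUnion, exists_prop, not_exists, not_and]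
    refine and_congr_right fun hz => ⟨fun h y hy hzy => hy.2 ?_, fun h => ?_⟩
    · exact JoinedIn.trans h (JoinedIn.symm hzy)
    · by_contra hc
      exact h z ⟨hFW hz, hc⟩ (mem_pathComponentIn_self (hFW hz))
  rw [e]
  exact hF.inter (isOpen_biUnion fun y _ => hW.pathComponentIn y).isClosed_compl

theorem front {O : Set X} (hO : IsOpen O) (a : X) : frontier (pathComponentIn O a) ⊆ Oᶜ := by
  intro z hz hzO
  rw [(hO.pathComponentIn a).frontier_eq] at hz
  obtain ⟨y, hy1, hy2⟩ := mem_closure_iff.1 hz.1 _ (hO.pathComponentIn z)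
    (mem_pathComponentIn_self hzO)
  exact hz.2 (JoinedIn.trans hy2 (JoinedIn.symm hy1))

omit [LocallyPathConnectedSpace X] in
theorem const {S : Set X} {a b : X} (h : JoinedIn S a b) {θ ψ : X → ℝ} (hθ : Continuous θ)
    (hψ : ContinuousOn ψ S) (he : ∀ x, Circle.exp (θ x) = Circle.exp (ψ x)) :
    θ a - ψ a = θ b - ψ b := by
  have h1 : ∀ x, Circle.exp (θ x - ψ x) = 1 := fun x => by
    rw [Circle.exp_sub, he x, div_self']
  exact Circle.isCoveringMap_exp.constOn_of_comp (g := fun x => θ x - ψ x)
    (isPathConnected_pathComponentIn h.source_mem).isConnected.isPreconnected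
    (hθ.continuousOn.sub (hψ.mono pathComponentIn_subset))
    (fun x _ y _ => by rw [h1, h1]) (mem_pathComponentIn_self h.source_mem) h

theorem pb (h : LiftP X) {F1 F2 : Set X} (h1 : IsClosed F1) (h2 : IsClosed F2)
    (hd : Disjoint F1 F2) {a b : X} (j1 : JoinedIn F1ᶜ a b) (j2 : JoinedIn F2ᶜ a b) :
    JoinedIn (F1 ∪ F2)ᶜ a b := by
  classical
  by_contra hcon
  obtain ⟨φ, hφ1, hφ2, -⟩ := exists_continuous_zero_one_of_isClosed h1 h2 hd
  have hO : IsOpen (F1 ∪ F2)ᶜ := (h1.union h2).isOpen_compl
  obtain ⟨U, hU⟩ : ∃ U, U = pathComponentIn (F1 ∪ F2)ᶜ a := ⟨_, rfl⟩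
  have hfr : ∀ z ∈ frontier {x | x ∈ U}, z ∈ F1 ∪ F2 := fun z hz => by
    have := front hO a (hU ▸ hz)
    rwa [compl_compl] at this
  have haU : a ∈ U := hU ▸ mem_pathComponentIn_self
    (fun h => h.elim j1.source_mem j2.source_mem)
  have hbU : b ∉ U := hU ▸ hcon
  have c1 : Continuous fun x => Real.pi * φ x := by fun_prop
  have c2 : Continuous fun x => -(Real.pi * φ x) := by fun_prop
  have c3 : Continuous fun x => -(Real.pi * φ x) + 2 * Real.pi := by fun_prop
  have hc : Continuous fun x => if x ∈ U then Circle.exp (Real.pi * φ x)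
      else Circle.exp (-(Real.pi * φ x)) := by
    refine Continuous.if (fun z hz => ?_) (Circle.exp.continuous.comp c1)
      (Circle.exp.continuous.comp c2)
    rcases hfr z hz with h | h
    · simp [hφ1 h]
    · rw [← Circle.exp_add_two_pi (-(Real.pi * φ z)), hφ2 h]
      congr 1
      simp only [Pi.one_apply]
      ring
  obtain ⟨θ, hθ⟩ := h ⟨_, hc⟩
  simp only [ContinuousMap.coe_mk] at hθ
  have e1 := const j1 θ.continuous
    (ψ := fun x => if x ∈ U then Real.pi * φ x else -(Real.pi * φ x) + 2 * Real.pi)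
    (ContinuousOn.if (fun z hz => by
      rw [hφ2 ((hfr z hz.2).resolve_left hz.1)]
      simp only [Pi.one_apply]
      ring) c1.continuousOn c3.continuousOn)
    (fun x => by
      rw [hθ]
      split_ifs
      · rfl
      · rw [Circle.exp_add_two_pi])
  have e2 := const j2 θ.continuous
    (ψ := fun x => if x ∈ U then Real.pi * φ x else -(Real.pi * φ x))
    (ContinuousOn.if (fun z hz => by
      rw [hφ1 ((hfr z hz.2).resolve_right hz.1)]
      simp) c1.continuousOn c2.continuousOn)
    (fun x => by
      rw [hθ]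
      split_ifs <;> rfl)
  simp only [if_pos haU, if_neg hbU] at e1 e2
  linarith [Real.pi_pos]

end SepP

theorem sepP (X : Type*) [MetricSpace X] [LocallyPathConnectedSpace X] [PathConnectedSpace X]
    (h : LiftP X) : SepP X := by
  classical
  intro F W a b hF hW hFW _ _ hn
  by_contra hcon
  have hall : ∀ x ∈ W, JoinedIn (F ∩ pathComponentIn W x)ᶜ a b := fun x hx => by
    by_contra hc
    exact hcon ⟨_, pathComponentIn_subset, hW.pathComponentIn x,
      isPathConnected_pathComponentIn hx,
      hF.of_isClosed_subset (SepP.closed_comp hW hF.isClosed hFW x) inter_subset_left, hc⟩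
  have key : ∀ t : Finset X, (∀ x ∈ t, x ∈ W) →
      JoinedIn (⋃ x ∈ t, F ∩ pathComponentIn W x)ᶜ a b := by
    intro t
    induction t using Finset.induction_on with
    | empty =>
      intro _
      simpa [joinedIn_univ] using PathConnectedSpace.joined a b
    | insert x t _ ih =>
      intro ht
      have ih' := ih fun y hy => ht y (Finset.mem_insert_of_mem hy)
      rw [Finset.set_biUnion_insert]
      by_cases hd : Disjoint (F ∩ pathComponentIn W x) (⋃ y ∈ t, F ∩ pathComponentIn W y)
      · exact SepP.pb h (SepP.closed_comp hW hF.isClosed hFW x)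
          (isClosed_biUnion_finset fun y _ => SepP.closed_comp hW hF.isClosed hFW y) hd
          (hall x (ht x (Finset.mem_insert_self x t))) ih'
      · obtain ⟨z, hz1, hz2⟩ := not_disjoint_iff.1 hd
        obtain ⟨y, hy, hzy⟩ := mem_iUnion₂.1 hz2
        have e : pathComponentIn W x = pathComponentIn W y :=
          (pathComponentIn_congr hz1.2).symm.trans (pathComponentIn_congr hzy.2)
        have hs : F ∩ pathComponentIn W y ⊆ ⋃ x ∈ t, F ∩ pathComponentIn W x :=
          fun w hw => mem_iUnion₂.2 ⟨y, hy, hw⟩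
        rw [e, union_eq_self_of_subset_left hs]
        exact ih'
  obtain ⟨t, ht, hcov⟩ := hF.elim_nhds_subcover (fun x => pathComponentIn W x)
    (fun x hx => (hW.pathComponentIn x).mem_nhds (mem_pathComponentIn_self (hFW hx)))
  refine hn ((key t fun x hx => hFW (ht x hx)).mono (compl_subset_compl.2 fun z hz => ?_))
  obtain ⟨y, hy, hzy⟩ := mem_iUnion₂.1 (hcov hz)
  exact mem_iUnion₂.2 ⟨y, hy, hz, hzy⟩

end Vale.Agent.P198
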