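import Vale.Agent.P198.L.Stm

/-! Finite sums. -/

open Set MeasureTheory

namespace Vale.Agent.P198

namespace SumPAux

theorem bip {ι κ : Type*} (S : Finset ι) (T : Finset κ) (R : ι → κ → Prop)
    [∀ i, DecidablePred (R i)] [∀ k, DecidablePred fun i => R i k] (τ : κ → ℝ) (N N' : ℕ)
    (h1 : ∀ i ∈ S, (T.filter (R i)).card ≤ N)
    (h2 : ∀ k ∈ T, (S.filter fun i => R i k).card ≤ N') :
    ∑ i ∈ S, (∑ k ∈ T.filter (R i), τ k) ^ 2 ≤ N * N' * ∑ k ∈ T, τ k ^ 2 := by
  have a1 : ∑ i ∈ S, (∑ k ∈ T.filter (R i), τ k) ^ 2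
      ≤ ∑ i ∈ S, (N : ℝ) * ∑ k ∈ T.filter (R i), τ k ^ 2 := by
    refine Finset.sum_le_sum fun i hi => sq_sum_le_card_mul_sum_sq.trans ?_
    exact mul_le_mul_of_nonneg_right (by exact_mod_cast h1 i hi)
      (Finset.sum_nonneg fun k _ => sq_nonneg _)
  have a2 : ∑ i ∈ S, ∑ k ∈ T.filter (R i), τ k ^ 2
      = ∑ k ∈ T, ∑ i ∈ S.filter (fun i => R i k), τ k ^ 2 := by
    refine Finset.sum_comm' fun i k => ?_
    simp only [Finset.mem_filter]
    tauto
  have a3 : ∑ k ∈ T, ∑ i ∈ S.filter (fun i => R i k), τ k ^ 2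
      ≤ ∑ k ∈ T, (N' : ℝ) * τ k ^ 2 := by
    refine Finset.sum_le_sum fun k hk => ?_
    rw [Finset.sum_const, nsmul_eq_mul]
    exact mul_le_mul_of_nonneg_right (by exact_mod_cast h2 k hk) (sq_nonneg _)
  rw [← Finset.mul_sum, a2] at a1
  rw [← Finset.mul_sum] at a3
  rw [mul_assoc]
  exact a1.trans (mul_le_mul_of_nonneg_left a3 (Nat.cast_nonneg N))

theorem cover {κ : Type*} (T : Finset κ) (c r : κ → ℝ) (a b : ℝ) (hr : ∀ k ∈ T, 0 ≤ r k)
    (h : ∀ t, a ≤ t → t ≤ b → ∃ k ∈ T, |t - c k| ≤ r k) : b - a ≤ ∑ k ∈ T, 2 * r k := by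
  have h1 : Icc a b ⊆ ⋃ k ∈ T, Icc (c k - r k) (c k + r k) := by
    intro t ht
    obtain ⟨k, hk, h2⟩ := h t ht.1 ht.2
    have h3 := abs_le.1 h2
    exact mem_biUnion hk ⟨by linarith [h3.1], by linarith [h3.2]⟩
  have h2 : volume (Icc a b) ≤ ∑ k ∈ T, volume (Icc (c k - r k) (c k + r k)) :=
    (measure_mono h1).trans (measure_biUnion_finset_le T _)
  have h3 : ∑ k ∈ T, volume (Icc (c k - r k) (c k + r k))
      = ENNReal.ofReal (∑ k ∈ T, 2 * r k) := by
    rw [ENNReal.ofReal_sum_of_nonneg fun k hk => by linarith [hr k hk]]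
    refine Finset.sum_congr rfl fun k _ => ?_
    rw [Real.volume_Icc]
    congr 1
    ring
  rw [h3, Real.volume_Icc] at h2
  exact (ENNReal.ofReal_le_ofReal_iff
    (Finset.sum_nonneg fun k hk => by linarith [hr k hk])).1 h2

theorem indep {ι : Type*} (R : ι → ι → Prop) [∀ i, DecidablePred (R i)] (N : ℕ)
    (h1 : ∀ i, R i i) (h2 : ∀ i j, R i j → R j i) (n : ℕ) :
    ∀ S : Finset ι, S.card ≤ n → (∀ i ∈ S, (S.filter (R i)).card ≤ N) →
    ∃ S' ⊆ S, S.card ≤ N * S'.card ∧ ∀ i ∈ S', ∀ j ∈ S', i ≠ j → ¬ R i j := by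
  classical
  induction n with
  | zero =>
    intro S hS _
    exact ⟨∅, Finset.empty_subset _, hS.trans (Nat.zero_le _), fun i hi => absurd hi (by simp)⟩
  | succ n ih =>
    intro S hS hN
    rcases S.eq_empty_or_nonempty with rfl | ⟨i, hi⟩
    · exact ⟨∅, Finset.empty_subset _, by simp, fun i hi => absurd hi (by simp)⟩
    have e := Finset.card_filter_add_card_filter_not (s := S) (R i)
    have hpos : 0 < (S.filter (R i)).card :=
      Finset.card_pos.2 ⟨i, Finset.mem_filter.2 ⟨hi, h1 i⟩⟩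
    obtain ⟨S', hs, hc, hI⟩ := ih (S.filter fun j => ¬ R i j) (by omega) fun j hj =>
      (Finset.card_le_card (Finset.filter_subset_filter _ (Finset.filter_subset _ _))).trans
        (hN j (Finset.mem_filter.1 hj).1)
    have hni : i ∉ S' := fun h => (Finset.mem_filter.1 (hs h)).2 (h1 i)
    refine ⟨insert i S', Finset.insert_subset hi (hs.trans (Finset.filter_subset _ _)), ?_, ?_⟩
    · rw [Finset.card_insert_of_notMem hni, mul_add, mul_one]
      have := hN i hi
      omega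
    · intro j hj k hk hjk
      rcases Finset.mem_insert.1 hj with rfl | hj'
      · rcases Finset.mem_insert.1 hk with rfl | hk'
        · exact absurd rfl hjk
        · exact (Finset.mem_filter.1 (hs hk')).2
      · rcases Finset.mem_insert.1 hk with rfl | hk'
        · exact fun h => (Finset.mem_filter.1 (hs hj')).2 (h2 _ _ h)
        · exact hI j hj' k hk' hjk

end SumPAux

theorem sumP (ι κ : Type*) : SumP ι κ where
  bip := fun S T R _ _ τ N N' h1 h2 => SumPAux.bip S T R τ N N' h1 h2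
  cover := SumPAux.cover
  indep := fun S R _ N h1 h2 h3 => SumPAux.indep R N h1 h2 S.card S le_rfl h3

end Vale.Agent.P198
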