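import Vale.Agent.P198.L.Stm

/-! The order of crossing sets of a strip. -/

open Set Metric Topology Filter

namespace Vale.Agent.P198

namespace UpPAux

theorem rect_join {a b c d : ℝ} {x y : ℂ} (hx : x ∈ rect a b c d) (hy : y ∈ rect a b c d) :
    JoinedIn (rect a b c d) x y := by
  have h : Convex ℝ (rect a b c d) :=
    (convex_halfSpace_re_ge a).inter ((convex_halfSpace_re_le b).inter
      ((convex_halfSpace_im_ge c).inter (convex_halfSpace_im_le d)))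
  exact (h.isPathConnected ⟨x, hx⟩).joinedIn x hx y hy

theorem bdd {K : Set ℂ} (hK : IsCompact K) : ∃ c d : ℝ, ∀ z ∈ K, c < z.im ∧ z.im < d := by
  obtain ⟨R, hR⟩ := hK.isBounded.exists_norm_le
  refine ⟨-R - 1, R + 1, fun z hz => ?_⟩
  have := abs_le.1 ((Complex.abs_im_le_norm z).trans (hR z hz))
  constructor <;> linarith [this.1, this.2]

theorem bot (hX : XP) (hP : PathP ℂ) {a b : ℝ} {A : Set ℂ} {w : ℂ} (hA : Crs a b A)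
    (hw : ∀ z ∈ A, w.im < z.im) : w ∉ Up a b A := by
  rintro ⟨y, h1, h2⟩
  obtain ⟨Q, hQ, hc, hp, hwQ, hyQ⟩ := hP.cpt _ _ _ h1
  obtain ⟨c, d, hcd⟩ := bdd (hA.cpt.union hc)
  obtain ⟨x, hx, hxa⟩ := hA.left
  obtain ⟨x', hx', hxb⟩ := hA.right
  have hr : ∀ z ∈ A ∪ Q, z ∈ strip a b → z ∈ rect a b c d := fun z hz hs =>
    ⟨hs.1, hs.2, (hcd z hz).1.le, (hcd z hz).2.le⟩
  have hwr := hr w (Or.inr hwQ) (hQ hwQ).1
  have hyr := hr y (Or.inr hyQ) (hQ hyQ).1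
  have j1 : JoinedIn (rect a b c d \ A) ⟨w.re, c⟩ w :=
    (rect_join (a := a) (b := b) (c := c) (d := w.im) (x := ⟨w.re, c⟩) (y := w)
      ⟨hwr.1, hwr.2.1, le_rfl, hwr.2.2.1⟩
      ⟨hwr.1, hwr.2.1, hwr.2.2.1, le_rfl⟩).mono fun z hz =>
        ⟨⟨hz.1, hz.2.1, hz.2.2.1, hz.2.2.2.trans hwr.2.2.2⟩, fun h => (hw z h).not_ge hz.2.2.2⟩
  have j2 : JoinedIn (rect a b c d \ A) w y :=
    (hp.joinedIn w hwQ y hyQ).mono fun z hz => ⟨hr z (Or.inr hz) (hQ hz).1, (hQ hz).2⟩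
  have j3 : JoinedIn (rect a b c d \ A) y ⟨y.re, d⟩ :=
    (rect_join (a := a) (b := b) (c := y.im) (d := d) (x := y) (y := ⟨y.re, d⟩)
      ⟨hyr.1, hyr.2.1, le_rfl, hyr.2.2.2⟩
      ⟨hyr.1, hyr.2.1, hyr.2.2.2, le_rfl⟩).mono fun z hz =>
        ⟨⟨hz.1, hz.2.1, hyr.2.2.1.trans hz.2.2.1, hz.2.2.2⟩, fun h => (h2 z h).not_ge hz.2.2.1⟩
  obtain ⟨z, hz, hz'⟩ := hX a b c d A (rect a b c d \ A) x x' _ _
    (fun z hz => hr z (Or.inl hz) (hA.sub hz)) sdiff_subset (hA.conn.joinedIn x hx x' hx') hxa hxb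
    ((j1.trans j2).trans j3) rfl rfl
  exact hz'.2 hz

theorem key (hP : PathP ℂ) {a b : ℝ} {A A' Λ N N' : Set ℂ} (hA : Crs a b A) (hA' : Crs a b A')
    (hΛ : Λ ⊆ strip a b) (hp : IsPathConnected Λ) (hm : (Λ ∩ A).Nonempty) (h1 : A ∩ Λ ⊆ N)
    (h2 : Disjoint N A') (h3 : A' ∩ Λ ⊆ N') (h4 : Disjoint N' A) {x : ℂ} (hx : x ∈ Λ) :
    (∃ y ∈ N, JoinedIn (strip a b \ A') x y) ∨ ∃ y ∈ N', JoinedIn (strip a b \ A) x y := by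
  obtain ⟨y0, hy0, hy0'⟩ := hm
  obtain ⟨y, hy, hyΛ, hj⟩ := hP.first Λ (A ∪ A') x y0 (hp.joinedIn x hx y0 hy0)
    (hA.cpt.union hA'.cpt).isClosed (Or.inl hy0')
  rcases hy with hy | hy
  · refine Or.inl ⟨y, h1 ⟨hy, hyΛ⟩, hj.mono ?_⟩
    rintro z (hz | rfl)
    · exact ⟨hΛ hz.1, fun h => hz.2 (Or.inr h)⟩
    · exact ⟨hΛ hyΛ, disjoint_left.1 h2 (h1 ⟨hy, hyΛ⟩)⟩
  · refine Or.inr ⟨y, h3 ⟨hy, hyΛ⟩, hj.mono ?_⟩
    rintro z (hz | rfl)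
    · exact ⟨hΛ hz.1, fun h => hz.2 (Or.inl h)⟩
    · exact ⟨hΛ hyΛ, disjoint_left.1 h4 (h3 ⟨hy, hyΛ⟩)⟩

theorem spread {a b : ℝ} {A N : Set ℂ} (hN : N ⊆ strip a b) (hp : IsPathConnected N)
    (hd : Disjoint N A) {y : ℂ} (hy : y ∈ N) (hu : y ∈ Up a b A) : N ⊆ Up a b A := fun z hz =>
  up_join ((hp.joinedIn z hz y hy).mono fun _ h => ⟨hN h, disjoint_left.1 hd h⟩) hu

theorem tri (hX : XP) (hP : PathP ℂ) {a b : ℝ} {A A' Λ N N' : Set ℂ} (hA : Crs a b A)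
    (hA' : Crs a b A') (hΛ : Λ ⊆ strip a b) (hp : IsPathConnected Λ)
    (hlo : ∃ p ∈ Λ, ∀ z ∈ A ∪ A', p.im < z.im) (hhi : ∃ p ∈ Λ, ∀ z ∈ A ∪ A', z.im < p.im)
    (hN : N ⊆ strip a b) (hN' : N' ⊆ strip a b) (pN : IsPathConnected N)
    (pN' : IsPathConnected N') (h1 : A ∩ Λ ⊆ N) (h2 : Disjoint N A') (h3 : A' ∩ Λ ⊆ N')
    (h4 : Disjoint N' A) :
    (N ⊆ Up a b A' ∨ N' ⊆ Up a b A) ∧ ¬ (N ⊆ Up a b A' ∧ N' ⊆ Up a b A) ∧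
      (N' ⊆ Up a b A → Up a b A' ∩ Λ ⊆ Up a b A) := by
  obtain ⟨p, hpΛ, hlo⟩ := hlo
  obtain ⟨q, hqΛ, hhi⟩ := hhi
  have b1 := bot hX hP hA fun z hz => hlo z (Or.inl hz)
  have b2 := bot hX hP hA' fun z hz => hlo z (Or.inr hz)
  have t1 : q ∈ Up a b A := up_top (hΛ hqΛ) fun z hz => hhi z (Or.inl hz)
  have t2 : q ∈ Up a b A' := up_top (hΛ hqΛ) fun z hz => hhi z (Or.inr hz)
  have hm : (Λ ∩ A).Nonempty := by
    by_contra h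
    exact b1 (up_join ((hp.joinedIn p hpΛ q hqΛ).mono fun z hz =>
      ⟨hΛ hz, fun h' => h ⟨z, hz, h'⟩⟩) t1)
  have k := fun x hx => key hP hA hA' hΛ hp hm h1 h2 h3 h4 (x := x) hx
  have c2 : ¬ (N ⊆ Up a b A' ∧ N' ⊆ Up a b A) := by
    rintro ⟨u1, u2⟩
    rcases k p hpΛ with ⟨y, hy, hj⟩ | ⟨y, hy, hj⟩
    · exact b2 (up_join hj (u1 hy))
    · exact b1 (up_join hj (u2 hy))
  refine ⟨?_, c2, fun u2 w hw => ?_⟩
  · rcases k q hqΛ with ⟨y, hy, hj⟩ | ⟨y, hy, hj⟩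
    · exact Or.inl (spread hN pN h2 hy (up_join hj.symm t2))
    · exact Or.inr (spread hN' pN' h4 hy (up_join hj.symm t1))
  · rcases k w hw.2 with ⟨y, hy, hj⟩ | ⟨y, hy, hj⟩
    · exact absurd ⟨spread hN pN h2 hy (up_join hj.symm hw.1), u2⟩ c2
    · exact up_join hj (u2 hy)

theorem nest0 (hX : XP) (hP : PathP ℂ) {a b : ℝ} {A A' : Set ℂ} (hA : Crs a b A)
    (hA' : Crs a b A') (hd : Disjoint A A') :
    (A ⊆ Up a b A' ∨ A' ⊆ Up a b A) ∧ (A' ⊆ Up a b A → Up a b A' ⊆ Up a b A) := by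
  obtain ⟨c, d, hcd⟩ := bdd (hA.cpt.union hA'.cpt)
  obtain ⟨x, hx, -⟩ := hA.left
  have hs : Convex ℝ (strip a b) := (convex_halfSpace_re_ge a).inter (convex_halfSpace_re_le b)
  obtain ⟨h1, -, h3⟩ := tri hX hP hA hA' subset_rfl (hs.isPathConnected ⟨x, hA.sub hx⟩)
    ⟨⟨x.re, c⟩, (hA.sub hx : x ∈ strip a b), fun z hz => (hcd z hz).1⟩
    ⟨⟨x.re, d⟩, (hA.sub hx : x ∈ strip a b), fun z hz => (hcd z hz).2⟩ hA.sub hA'.sub hA.conn hA'.conn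
    inter_subset_left hd inter_subset_left hd.symm
  exact ⟨h1, fun h w hw => h3 h ⟨hw, (up_sub hw).1⟩⟩

end UpPAux

theorem upP (hX : XP) (hP : PathP ℂ) : UpP where
  bot _ _ _ _ hA hw := UpPAux.bot hX hP hA hw
  tri _ _ _ _ _ _ _ := UpPAux.tri hX hP
  nest _ _ _ _ hA hA' hd :=
    (UpPAux.nest0 hX hP hA hA' hd).1.imp (UpPAux.nest0 hX hP hA' hA hd.symm).2
      (UpPAux.nest0 hX hP hA hA' hd).2

end Vale.Agent.P198
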