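import Vale.Agent.P198.L.Stm

/-! The crossing lemma. -/

open Set Metric Topology Filter

namespace Vale.Agent.P198

namespace XPAux

open Complex

theorem lift (F : ℝ × ℝ → ℂ) (hF : Continuous F) (h0 : ∀ p, F p ≠ 0) :
    ∃ L : ℝ × ℝ → ℂ, Continuous L ∧ ∀ p, exp (L p) = F p := by
  let f : C(ℝ × ℝ, {z : ℂ // z ≠ 0}) := ⟨fun p => ⟨F p, h0 p⟩, hF.subtype_mk _⟩
  obtain ⟨L, ⟨-, hL⟩, -⟩ := isCoveringMap_exp.existsUnique_continuousMap_lifts f 0 (log (F 0))
    (Subtype.ext (exp_log (h0 0)))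
  exact ⟨L, L.continuous, fun p => congrArg Subtype.val (congrFun hL p)⟩

theorem side (l : ℝ → ℂ) (hl : Continuous l) (u : ℂ) (hu : u ≠ 0)
    (h : ∀ t, 0 ≤ (u * exp (l t)).re) :
    (l 1).im - (l 0).im = arg (u * exp (l 1)) - arg (u * exp (l 0)) := by
  have hn : ∀ t, u * exp (l t) ≠ 0 := fun t => mul_ne_zero hu (exp_ne_zero _)
  have hs : ∀ t, u * exp (l t) ∈ slitPlane := by
    intro t
    rcases (h t).lt_or_eq with h1 | h1
    · exact Or.inl h1
    · exact Or.inr fun h2 => hn t (Complex.ext h1.symm h2)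
  have hc : Continuous fun t => l t - log (u * exp (l t)) :=
    hl.sub ((continuous_const.mul (continuous_exp.comp hl)).clog hs)
  have he : ∀ t, exp (l t - log (u * exp (l t))) = u⁻¹ := by
    intro t
    rw [exp_sub, exp_log (hn t)]
    field_simp
  have := isCoveringMap_exp.const_of_comp hc
    (fun a a' => Subtype.ext ((he a).trans (he a').symm)) 1 0
  have h2 := congrArg Complex.im this
  simp only [sub_im, log_im] at h2
  linarith

theorem corner {w v : ℂ} (hw : w ≠ 0) (h1 : 0 ≤ w.re) (h2 : 0 ≤ w.im) (hv : v = -I * w) :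
    arg v < arg w := by
  have a1 : 0 ≤ arg w := arg_nonneg_iff.2 h2
  have vr : v.re = w.im := by simp [hv]
  have vi : v.im = -w.re := by simp [hv]
  rcases h1.lt_or_eq with h | h
  · exact (arg_neg_iff.2 (by linarith)).trans_le a1
  · have : arg v = 0 := arg_eq_zero_iff.2 ⟨by linarith, by linarith⟩
    rw [this]
    refine a1.lt_of_ne fun e => hw (Complex.ext h.symm (arg_eq_zero_iff.1 e.symm).2)

theorem square (F : ℝ × ℝ → ℂ) (hF : Continuous F) (h0 : ∀ p, F p ≠ 0)
    (s0 : ∀ t, (F (0, t)).re ≤ 0) (s1 : ∀ t, 0 ≤ (F (1, t)).re)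
    (t0 : ∀ s, 0 ≤ (F (s, 0)).im) (t1 : ∀ s, (F (s, 1)).im ≤ 0) : False := by
  obtain ⟨L, hL, he⟩ := lift F hF h0
  have e1 := side (fun s => L (s, 0)) (by fun_prop) (-I) (neg_ne_zero.2 I_ne_zero)
    fun s => by simpa [he] using t0 s
  have e2 := side (fun t => L (1, t)) (by fun_prop) 1 one_ne_zero
    fun t => by simpa [he] using s1 t
  have e3 := side (fun s => L (s, 1)) (by fun_prop) I I_ne_zero
    fun s => by simpa [he] using t1 s
  have e4 := side (fun t => L (0, t)) (by fun_prop) (-1) (neg_ne_zero.2 one_ne_zero)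
    fun t => by simpa [he] using s0 t
  simp only [he] at e1 e2 e3 e4
  have c1 : arg (-I * F (1, 0)) < arg (1 * F (1, 0)) :=
    corner (mul_ne_zero one_ne_zero (h0 _)) (by simpa using s1 0) (by simpa using t0 1)
      (by ring)
  have c2 : arg (1 * F (1, 1)) < arg (I * F (1, 1)) :=
    corner (mul_ne_zero I_ne_zero (h0 _)) (by simpa using t1 1) (by simpa using s1 1)
      (by rw [← mul_assoc, neg_mul, I_mul_I, neg_neg])
  have c3 : arg (I * F (0, 1)) < arg (-1 * F (0, 1)) :=
    corner (mul_ne_zero (neg_ne_zero.2 one_ne_zero) (h0 _)) (by simpa using s0 1)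
      (by simpa using t1 0) (by ring)
  have c4 : arg (-1 * F (0, 0)) < arg (-I * F (0, 0)) :=
    corner (mul_ne_zero (neg_ne_zero.2 I_ne_zero) (h0 _)) (by simpa using t0 0)
      (by simpa using s0 0) (by rw [← mul_assoc, neg_mul_neg, I_mul_I])
  linarith

end XPAux

theorem xP : XP := by
  intro a b c d P Q x y z w hP hQ hxy hx hy hzw hz hw
  obtain ⟨γ, hγ⟩ := hxy
  obtain ⟨σ, hσ⟩ := hzw
  have mγ : ∀ s, γ.extend s ∈ P := fun s => hγ _
  have mσ : ∀ t, σ.extend t ∈ Q := fun t => hσ _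
  by_contra hn
  refine XPAux.square (fun p => γ.extend p.1 - σ.extend p.2) (by fun_prop) (fun p h => hn ?_)
    (fun t => ?_) (fun t => ?_) (fun s => ?_) fun s => ?_
  · exact ⟨γ.extend p.1, mγ _, (sub_eq_zero.1 h).symm ▸ mσ _⟩
  · have := (hQ (mσ t)).1
    simp only [Path.extend_zero, Complex.sub_re]
    linarith
  · have := (hQ (mσ t)).2.1
    simp only [Path.extend_one, Complex.sub_re]
    linarith
  · have := (hP (mγ s)).2.2.1
    simp only [Path.extend_zero, Complex.sub_im]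
    linarith
  · have := (hP (mγ s)).2.2.2
    simp only [Path.extend_one, Complex.sub_im]
    linarith

end Vale.Agent.P198
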