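import Vale.Agent.P198.G.Two
import Vale.Agent.P198.G.Llc
import Vale.Agent.P198.G.Llc2
import Vale.Agent.P198.G.Pack
import Vale.Agent.P198.L.PathP
import Vale.Agent.P198.L.XP
import Vale.Agent.P198.L.UpP
import Vale.Agent.P198.L.LiftC
import Vale.Agent.P198.L.SepP
import Vale.Agent.P198.L.LevelP
import Vale.Agent.P198.L.SumP
import Vale.Agent.P198.L.OptP
import Vale.Agent.P198.L.ModP
import Vale.Agent.P198.L.FlowP
import Vale.Agent.P198.L.AnnP
import Vale.Agent.P198.L.InvP
import Vale.Agent.P198.L.SerP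

/-! The library, unconditional forms. -/

open Set Metric Topology Filter

namespace Vale.Agent.P198

variable {G Z : Type*} [Group G] [MetricSpace Z] [MulAction G Z] [CompactSpace Z]

theorem geo (D : Dyn G Z) : Nonempty (Geo Z) :=
  geo_of (gTwo D) (gLlc D (gTwo D)) (gLlc2 D (gLlc D (gTwo D))) (gPack D)

theorem upP' : UpP := upP xP (pathP ℂ)

theorem rect_convex (a b c d : ℝ) : Convex ℝ (rect a b c d) := by
  have : rect a b c d = {w : ℂ | a ≤ w.re} ∩ ({w : ℂ | w.re ≤ b} ∩ ({w : ℂ | c ≤ w.im} ∩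
      {w : ℂ | w.im ≤ d})) := rfl
  rw [this]
  exact (convex_halfSpace_re_ge a).inter ((convex_halfSpace_re_le b).inter
    ((convex_halfSpace_im_ge c).inter (convex_halfSpace_im_le d)))

theorem strip_convex (a b : ℝ) : Convex ℝ (strip a b) :=
  (convex_halfSpace_re_ge a).inter (convex_halfSpace_re_le b)

theorem levelP' : LevelP := by
  refine levelP fun a b c d hab hcd => ?_
  have hne : (rect a b c d).Nonempty := ⟨⟨a, c⟩, le_rfl, hab, le_rfl, hcd⟩
  have hc := rect_convex a b c d
  haveI : LocallyPathConnectedSpace (rect a b c d) := hc.locallyPathConnectedSpace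
  haveI : PathConnectedSpace (rect a b c d) :=
    isPathConnected_iff_pathConnectedSpace.1 (hc.isPathConnected hne)
  exact sepP _ (liftP_convex _ hc hne)

theorem sepZ (D : Dyn G Z) : SepP Z := by
  obtain ⟨-, h1, h2⟩ := gTwo D
  exact sepP Z (liftP_Z D)

theorem flowP' (D : Dyn G Z) (ι : Type*) : FlowP D ι := flowP D ι (modP D) (optP G ι)

theorem annP' (D : Dyn G Z) : AnnP D := annP D (modP D) (sumP G G) (pathP Z)

theorem invP' (D : Dyn G Z) : InvP D := invP D (modP D) (sumP G G)

end Vale.Agent.P198
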