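import Vale.Agent.P198.L.Stm

/-! Annuli in series. -/

open Set Metric Topology Filter

namespace Vale.Agent.P198

variable {G Z : Type*} [Group G] [MetricSpace Z] [MulAction G Z] [CompactSpace Z]

namespace SerPAux

omit [CompactSpace Z] in
theorem closed_ann (z : Z) (s : ℝ) : IsClosed (ann z s) :=
  (isClosed_le continuous_const (continuous_id.dist continuous_const)).inter
    (isClosed_le (continuous_id.dist continuous_const) continuous_const)

theorem ev_disj (D : Dyn G Z) {S S' : Set Z} (hS : IsClosed S) (hS' : IsClosed S')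
    (h : Disjoint S S') : ∀ᶠ n in atTop, ∀ g, g ∈ D.hit n S → g ∉ D.hit n S' := by
  obtain ⟨δ, hδ, hd⟩ := h.exists_thickenings hS.isCompact hS'
  filter_upwards [D.ev_small (2 * D.C) δ hδ] with n hn g hg hg'
  obtain ⟨-, x, hx, h1⟩ := D.mem_hit.1 hg
  obtain ⟨-, y, hy, h2⟩ := D.mem_hit.1 hg'
  rw [dist_comm] at h1 h2
  exact Set.disjoint_left.1 hd (mem_thickening_iff.2 ⟨x, hx, h1.trans hn⟩)
    (mem_thickening_iff.2 ⟨y, hy, h2.trans hn⟩)

theorem sq_sum {ι : Type*} (T : Finset ι) (f : ι → ℝ)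
    (h : ∀ i ∈ T, ∀ j ∈ T, i ≠ j → f i = 0 ∨ f j = 0) :
    (∑ i ∈ T, f i) ^ 2 = ∑ i ∈ T, f i ^ 2 := by
  rw [sq, Finset.sum_mul_sum]
  refine Finset.sum_congr rfl fun i hi => ?_
  rw [Finset.sum_eq_single_of_mem i hi, sq]
  intro j hj hne
  exact mul_eq_zero.2 (h i hi j hj hne.symm)

end SerPAux

open SerPAux

theorem serP (D : Dyn G Z) : SerP D := by
  intro T hT hpos hdis
  have h1 : ∀ᶠ n in atTop, ∀ p ∈ T, D.q ^ n ≤ p.2 := by
    refine (eventually_all_finset T).2 fun p hp => ?_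
    filter_upwards [D.ev_small 1 p.2 (hpos p hp)] with n hn
    linarith
  have h2 : ∀ᶠ n in atTop, ∀ p ∈ T, ∀ p' ∈ T, p ≠ p' →
      ∀ g, g ∈ D.hit n (ann p.1 p.2) → g ∉ D.hit n (ann p'.1 p'.2) := by
    refine (eventually_all_finset T).2 fun p hp => (eventually_all_finset T).2 fun p' hp' => ?_
    by_cases hne : p = p'
    · exact Eventually.of_forall fun n h => absurd hne h
    · filter_upwards [ev_disj D (closed_ann _ _) (closed_ann _ _) (hdis p hp p' hp' hne)]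
        with n hn _
      exact hn
  filter_upwards [h1, h2] with n hn1 hn2 B hB
  choose! ρ hρ0 hρ1 hρ2 hρ3 using fun (p : Z × ℝ) (hp : p ∈ T) => hB p.1 p.2 (hn1 p hp)
  have hN : (0 : ℝ) < T.card := by exact_mod_cast hT.card_pos
  refine ⟨fun g => (T.card : ℝ)⁻¹ * ∑ p ∈ T, ρ p g,
    fun g => mul_nonneg (inv_nonneg.2 hN.le) (Finset.sum_nonneg fun p hp => hρ0 p hp g),
    ?_, fun g hg => ?_, fun A hA => ?_⟩
  · have e1 : D.mass n (fun g => (T.card : ℝ)⁻¹ * ∑ p ∈ T, ρ p g) =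
        ((T.card : ℝ)⁻¹) ^ 2 * ∑ p ∈ T, D.mass n (ρ p) := by
      unfold Dyn.mass
      rw [Finset.sum_comm, Finset.mul_sum]
      refine Finset.sum_congr rfl fun g _ => ?_
      rw [mul_pow, sq_sum T (fun p => ρ p g)]
      intro p hp p' hp' hne
      by_contra hc
      rw [not_or] at hc
      exact hn2 p hp p' hp' hne g (hρ1 p hp g hc.1) (hρ1 p' hp' g hc.2)
    have e2 : ∑ p ∈ T, D.mass n (ρ p) ≤ T.card * B := by
      have h := Finset.sum_le_card_nsmul T (fun p => D.mass n (ρ p)) B fun p hp => hρ2 p hp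
      rwa [nsmul_eq_mul] at h
    rw [e1]
    calc (T.card : ℝ) * (((T.card : ℝ)⁻¹) ^ 2 * ∑ p ∈ T, D.mass n (ρ p))
        = (T.card : ℝ)⁻¹ * ∑ p ∈ T, D.mass n (ρ p) := by field_simp
      _ ≤ (T.card : ℝ)⁻¹ * (T.card * B) := mul_le_mul_of_nonneg_left e2 (inv_nonneg.2 hN.le)
      _ = B := by field_simp
  · obtain ⟨p, hp, h0⟩ := Finset.exists_ne_zero_of_sum_ne_zero (right_ne_zero_of_mul hg)
    exact ⟨p, hp, hρ1 p hp g h0⟩
  · have e1 : D.ln n (fun g => (T.card : ℝ)⁻¹ * ∑ p ∈ T, ρ p g) A =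
        (T.card : ℝ)⁻¹ * ∑ p ∈ T, D.ln n (ρ p) A := by
      unfold Dyn.ln
      rw [Finset.sum_comm, Finset.mul_sum]
    have e2 : (T.card : ℝ) ≤ ∑ p ∈ T, D.ln n (ρ p) A := by
      have h := Finset.card_nsmul_le_sum T (fun p => D.ln n (ρ p) A) 1 fun p hp => by
        obtain ⟨x, y, a1, a2, a3⟩ := hA p hp
        exact hρ3 p hp A x y a1 a2 a3
      rwa [nsmul_eq_mul, mul_one] at h
    rw [e1, ← div_eq_inv_mul, le_div_iff₀ hN, one_mul]
    exact e2

end Vale.Agent.P198
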