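import Vale.Agent.P198.Parts

/-! Library statements: paths, plane topology, finite sums, modulus. -/

open Set Metric Topology Filter

namespace Vale.Agent.P198

/-- Subpaths. -/
structure PathP (X : Type*) [TopologicalSpace X] : Prop where
  first : ∀ (P F : Set X) (x y : X), JoinedIn P x y → IsClosed F → y ∈ F →
    ∃ y' ∈ F, y' ∈ P ∧ JoinedIn ((P \ F) ∪ {y'}) x y'
  band : ∀ (P : Set X) (φ : X → ℝ) (x y : X) (a b : ℝ), JoinedIn P x y → ContinuousOn φ P →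
    φ x ≤ a → a ≤ b → b ≤ φ y →
    ∃ x' y', JoinedIn (P ∩ {w | a ≤ φ w ∧ φ w ≤ b}) x' y' ∧ φ x' = a ∧ φ y' = b
  cpt : ∀ (P : Set X) (x y : X), JoinedIn P x y →
    ∃ Q ⊆ P, IsCompact Q ∧ IsPathConnected Q ∧ x ∈ Q ∧ y ∈ Q

/-- The crossing lemma. -/
def XP : Prop :=
  ∀ (a b c d : ℝ) (P Q : Set ℂ) (x y z w : ℂ), P ⊆ rect a b c d → Q ⊆ rect a b c d →
    JoinedIn P x y → x.re = a → y.re = b → JoinedIn Q z w → z.im = c → w.im = d → (P ∩ Q).Nonempty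

theorem up_top {a b : ℝ} {A : Set ℂ} {w : ℂ} (hw : w ∈ strip a b) (h : ∀ z ∈ A, z.im < w.im) :
    w ∈ Up a b A :=
  ⟨w, JoinedIn.refl ⟨hw, fun hA => lt_irrefl _ (h w hA)⟩, h⟩

theorem up_join {a b : ℝ} {A : Set ℂ} {w w' : ℂ} (h : JoinedIn (strip a b \ A) w w')
    (hw : w' ∈ Up a b A) : w ∈ Up a b A := by
  obtain ⟨y, h1, h2⟩ := hw
  exact ⟨y, h.trans h1, h2⟩

theorem up_sub {a b : ℝ} {A : Set ℂ} : Up a b A ⊆ strip a b \ A :=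
  fun _ ⟨_, h, _⟩ => h.source_mem

/-- Order of crossing sets. -/
structure UpP : Prop where
  bot : ∀ (a b : ℝ) (A : Set ℂ) (w : ℂ), Crs a b A → (∀ z ∈ A, w.im < z.im) → w ∉ Up a b A
  tri : ∀ (a b : ℝ) (A A' Λ N N' : Set ℂ), Crs a b A → Crs a b A' → Λ ⊆ strip a b →
    IsPathConnected Λ → (∃ p ∈ Λ, ∀ z ∈ A ∪ A', p.im < z.im) →
    (∃ p ∈ Λ, ∀ z ∈ A ∪ A', z.im < p.im) → N ⊆ strip a b → N' ⊆ strip a b →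
    IsPathConnected N → IsPathConnected N' → A ∩ Λ ⊆ N → Disjoint N A' → A' ∩ Λ ⊆ N' →
    Disjoint N' A →
    (N ⊆ Up a b A' ∨ N' ⊆ Up a b A) ∧ ¬ (N ⊆ Up a b A' ∧ N' ⊆ Up a b A) ∧
      (N' ⊆ Up a b A → Up a b A' ∩ Λ ⊆ Up a b A)
  nest : ∀ (a b : ℝ) (A A' : Set ℂ), Crs a b A → Crs a b A' → Disjoint A A' →
    Up a b A ⊆ Up a b A' ∨ Up a b A' ⊆ Up a b A

/-- Circle valued maps lift. -/
def LiftP (X : Type*) [TopologicalSpace X] : Prop :=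
  ∀ f : C(X, Circle), ∃ θ : C(X, ℝ), ∀ x, Circle.exp (θ x) = f x

/-- A separating compact set has a separating piece inside one path component of any open
neighbourhood. -/
def SepP (X : Type*) [TopologicalSpace X] : Prop :=
  ∀ (F W : Set X) (a b : X), IsCompact F → IsOpen W → F ⊆ W → a ∉ F → b ∉ F →
    ¬ JoinedIn Fᶜ a b →
    ∃ W0 ⊆ W, IsOpen W0 ∧ IsPathConnected W0 ∧ IsCompact (F ∩ W0) ∧ ¬ JoinedIn (F ∩ W0)ᶜ a b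

/-- An approximate level set joining bottom to top. -/
def LevelP : Prop :=
  ∀ (a b c d t e : ℝ) (U : ℂ → ℝ), a ≤ b → c ≤ d → 0 < e → ContinuousOn U (rect a b c d) →
    (∀ w ∈ rect a b c d, w.re = a → U w ≤ t - e) → (∀ w ∈ rect a b c d, w.re = b → t + e ≤ U w) →
    ∃ Λ ⊆ rect a b c d, IsCompact Λ ∧ IsPathConnected Λ ∧ (∀ w ∈ Λ, |U w - t| < e) ∧
      (∃ w ∈ Λ, w.im = c) ∧ ∃ w ∈ Λ, w.im = d

/-- Finite sums. -/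
structure SumP (ι κ : Type*) : Prop where
  bip : ∀ (S : Finset ι) (T : Finset κ) (R : ι → κ → Prop) [∀ i, DecidablePred (R i)]
    [∀ k, DecidablePred fun i => R i k] (τ : κ → ℝ) (N N' : ℕ),
    (∀ i ∈ S, (T.filter (R i)).card ≤ N) → (∀ k ∈ T, (S.filter fun i => R i k).card ≤ N') →
    ∑ i ∈ S, (∑ k ∈ T.filter (R i), τ k) ^ 2 ≤ N * N' * ∑ k ∈ T, τ k ^ 2
  cover : ∀ (T : Finset κ) (c r : κ → ℝ) (a b : ℝ), (∀ k ∈ T, 0 ≤ r k) →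
    (∀ t, a ≤ t → t ≤ b → ∃ k ∈ T, |t - c k| ≤ r k) → b - a ≤ ∑ k ∈ T, 2 * r k
  indep : ∀ (S : Finset ι) (R : ι → ι → Prop) [∀ i, DecidablePred (R i)] (N : ℕ),
    (∀ i, R i i) → (∀ i j, R i j → R j i) → (∀ i ∈ S, (S.filter (R i)).card ≤ N) →
    ∃ S' ⊆ S, S.card ≤ N * S'.card ∧ ∀ i ∈ S', ∀ j ∈ S', i ≠ j → ¬ R i j

open Classical in
/-- The point of least norm in the convex hull of indicator functions. -/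
def OptP (G ι : Type*) : Prop :=
  ∀ (V : Finset G) (Γ : Set ι) (c : ι → Finset G), Γ.Nonempty → (∀ i ∈ Γ, c i ⊆ V) →
    ∃ (T : Finset ι) (μ : ι → ℝ), (∀ i ∈ T, i ∈ Γ) ∧ (∀ i, 0 ≤ μ i) ∧ ∑ i ∈ T, μ i = 1 ∧
      ∀ j ∈ Γ, ∑ g ∈ V, (∑ i ∈ T.filter fun i => g ∈ c i, μ i) ^ 2 ≤
        ∑ g ∈ c j, ∑ i ∈ T.filter fun i => g ∈ c i, μ i

variable {G Z : Type*} [Group G] [MetricSpace Z] [MulAction G Z]

open Classical in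
/-- The density of a weighted finite family of sets. -/
noncomputable def Dyn.dens (D : Dyn G Z) {ι : Type*} (n : ℕ) (T : Finset ι) (μ : ι → ℝ)
    (c : ι → Set Z) (g : G) : ℝ := ∑ i ∈ T.filter fun i => g ∈ D.hit n (c i), μ i

open Classical in
/-- The weight of a subfamily. -/
noncomputable def wt {ι : Type*} (T : Finset ι) (μ : ι → ℝ) (E : Set ι) : ℝ :=
  ∑ i ∈ T.filter fun i => i ∈ E, μ i

/-- Basic properties of the modulus. -/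
structure ModP (D : Dyn G Z) : Prop where
  le : ∀ n ρ Γ, D.Adm n ρ Γ → D.Mod n Γ ≤ D.mass n ρ
  nonneg : ∀ n Γ, 0 ≤ D.Mod n Γ
  near : ∀ n (Γ : Set (Set Z)) (ε : ℝ), (∀ A ∈ Γ, A.Nonempty) → 0 < ε →
    ∃ ρ, D.Adm n ρ Γ ∧ D.mass n ρ < D.Mod n Γ + ε
  ovp : ∀ n (Γ Γ' : Set (Set Z)), (∀ A ∈ Γ', A.Nonempty) → (∀ A ∈ Γ, ∃ A' ∈ Γ', A' ⊆ A) →
    D.Mod n Γ ≤ D.Mod n Γ'
  sub : ∀ n (s : Finset (Set (Set Z))), (∀ Γ ∈ s, ∀ A ∈ Γ, A.Nonempty) →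
    D.Mod n (⋃ Γ ∈ s, Γ) ≤ ∑ Γ ∈ s, D.Mod n Γ

/-- Flows. -/
structure FlowP (D : Dyn G Z) (ι : Type*) : Prop where
  ex : ∀ n (Γ : Set ι) (c : ι → Set Z), Γ.Nonempty → (∀ i ∈ Γ, (c i).Nonempty) →
    ∃ (T : Finset ι) (μ : ι → ℝ), (∀ i ∈ T, i ∈ Γ) ∧ (∀ i, 0 ≤ μ i) ∧ ∑ i ∈ T, μ i = 1 ∧
      D.Mod n (c '' Γ) * D.mass n (D.dens n T μ c) ≤ 1
  test : ∀ n (T : Finset ι) (μ : ι → ℝ) (c : ι → Set Z) (E : Set ι) (ρ : G → ℝ), (∀ i, 0 ≤ μ i) →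
    (∀ g, 0 ≤ ρ g) → (∀ i ∈ T, i ∈ E → 1 ≤ D.ln n ρ (c i)) →
    wt T μ E ^ 2 ≤ D.mass n ρ * D.mass n (D.dens n T μ c)
  cross : ∀ n (T : Finset ι) (μ : ι → ℝ) (c : ι → Set Z) (E : Set ι) (Γ : Set (Set Z)),
    (∀ i, 0 ≤ μ i) → (∀ i ∈ T, i ∈ E → ∀ B ∈ Γ, (c i ∩ B).Nonempty) →
    wt T μ E ^ 2 * D.Mod n Γ ≤ D.mass n (D.dens n T μ c)

/-- Test weights for annuli from a bound on the modulus at all coarser levels. -/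
def AnnP (D : Dyn G Z) : Prop :=
  ∃ δ0 C1 : ℝ, 0 < δ0 ∧ 0 < C1 ∧ ∀ (n : ℕ) (B : ℝ), 0 < B →
    (∀ m ≤ n, D.Mod m (Big Z δ0) ≤ B) → D.TestAt n (C1 * B)

/-- Quasi invariance of the modulus. -/
def InvP (D : Dyn G Z) : Prop :=
  ∀ h : G, ∃ c : ℝ, 0 < c ∧ ∀ (n : ℕ) (Γ : Set (Set Z)), (∀ A ∈ Γ, A.Nonempty) →
    c * D.Mod n Γ ≤ D.Mod n ((fun A => (fun x => h • x) '' A) '' Γ)

/-- `A` crosses the annulus. -/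
def CrA {Z : Type*} [MetricSpace Z] (A : Set Z) (p : Z × ℝ) : Prop :=
  ∃ x y, JoinedIn A x y ∧ dist x p.1 ≤ p.2 ∧ 2 * p.2 ≤ dist y p.1

/-- Annuli in series. -/
def SerP (D : Dyn G Z) : Prop :=
  ∀ T : Finset (Z × ℝ), T.Nonempty → (∀ p ∈ T, 0 < p.2) →
    (∀ p ∈ T, ∀ p' ∈ T, p ≠ p' → Disjoint (ann p.1 p.2) (ann p'.1 p'.2)) →
    ∀ᶠ n in atTop, ∀ B, D.TestAt n B → ∃ ρ : G → ℝ, (∀ g, 0 ≤ ρ g) ∧ T.card * D.mass n ρ ≤ B ∧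
      (∀ g, ρ g ≠ 0 → ∃ p ∈ T, g ∈ D.hit n (ann p.1 p.2)) ∧
      ∀ A, (∀ p ∈ T, CrA A p) → 1 ≤ D.ln n ρ A

end Vale.Agent.P198
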